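import Vale.Agent.P329.PhaseB

/-!
# Counting the occurrences of a letter at a given phase
-/

namespace Vale.Agent.P329

open Language

section wcnt

variable {α S : Type}

/-- Weighted count of the transitions used when reading `w` from `s`. -/
def wcnt (δ : S → α → S) (ω : S → α → ℕ) : S → List α → ℕ
  | _, [] => 0
  | s, a :: w => ω s a + wcnt δ ω (δ s a) w

theorem wcnt_eq_sum [Fintype α] [Fintype S] [DecidableEq α] [DecidableEq S]
    (δ : S → α → S) (ω : S → α → ℕ) (s : S) (w : List α) :
    wcnt δ ω s w =
      ∑ i : S × α, ω i.1 i.2 * cnt δ (fun t a => decide (t = i.1 ∧ a = i.2)) s w := by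
  induction w generalizing s with
  | nil => simp [wcnt, cnt]
  | cons a w ih =>
    simp only [wcnt, cnt, ih, mul_add, Finset.sum_add_distrib]
    congr 1
    rw [Finset.sum_eq_single (s, a)]
    · simp
    · rintro ⟨t, b⟩ - hne
      have : ¬ (s = t ∧ a = b) := by
        rintro ⟨rfl, rfl⟩; exact hne rfl
      simp [this]
    · intro h; exact absurd (Finset.mem_univ _) h

end wcnt

section kfun

variable {p : ℕ} [Fact p.Prime]

/-- `t.val` if it is nonzero, `p` otherwise. -/
def Kv (t : ZMod p) : ℕ := if t.val = 0 then p else t.val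

theorem Kv_add_one (t : ZMod p) : Kv (t + 1) = t.val + 1 := by
  have hp : 1 < p := (Fact.out : p.Prime).one_lt
  have : Fact (1 < p) := ⟨hp⟩
  have h1 : (t + 1).val = (t.val + 1) % p := by
    rw [ZMod.val_add, ZMod.val_one]
  have hlt : t.val < p := ZMod.val_lt t
  unfold Kv
  rw [h1]
  by_cases h : t.val + 1 = p
  · rw [h]; simp
  · have : t.val + 1 < p := by omega
    rw [Nat.mod_eq_of_lt this]; simp

theorem neg_val_add_val (t : ZMod p) (ht : t ≠ 0) : (-t).val + t.val = p := by
  have hlt : t.val < p := ZMod.val_lt t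
  rw [ZMod.neg_val, if_neg ht]; omega

end kfun

variable {α : Type} [DecidableEq α] {p : ℕ} [Fact p.Prime] (π : α → ZMod p)

/-- Potential of a state: cost of closing the currently open run. -/
def Phi (x : α) (g : ZMod p) (s : ZMod p × Bool) : ℕ :=
  if s.2 then Kv ((s.1 - g) / π x) else 0

/-- Left weight. -/
def omL (x : α) (g : ZMod p) (s : ZMod p × Bool) (c : α) : ℕ :=
  (if c = x ∧ s.2 = false then ((g - s.1) / π x).val else 0) +
    (if c ≠ x ∧ π c ≠ 0 ∧ s.2 = true then Kv ((s.1 - g) / π x) else 0)

/-- Right weight. -/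
def omR (x : α) (s : ZMod p × Bool) (c : α) : ℕ :=
  if c = x ∧ s.2 = false then p else 0

theorem one_step (x : α) (hx : π x ≠ 0) (g : ZMod p) (s : ZMod p × Bool) (c : α) :
    p * (if c = x ∧ s.1 = g then 1 else 0) + omL π x g s c + Phi π x g (dPure π x s c) =
      (if c = x then 1 else 0) + omR (p := p) x s c + Phi π x g s := by
  obtain ⟨q, f⟩ := s
  set t : ZMod p := (q - g) / π x with ht
  have hq : q = g ↔ t = 0 := by
    rw [ht, div_eq_zero_iff]
    constructor
    · intro h; left; rw [h, sub_self]
    · rintro (h | h)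
      · exact sub_eq_zero.1 h
      · exact absurd h hx
  have h1 : (q + π x - g) / π x = t + 1 := by
    rw [ht]; field_simp; ring
  have h2 : (g - q) / π x = -t := by
    rw [ht]; field_simp; ring
  by_cases hc : c = x
  · subst hc
    cases f
    · simp only [omL, omR, Phi, dPure, hx, if_false, true_and, decide_true, if_true, ne_eq,
        not_true_eq_false, false_and, add_zero, h1, h2, Kv_add_one, and_self, Bool.false_eq_true]
      by_cases h0 : t = 0
      · simp [hq.2 h0, h0]; ring
      · have := neg_val_add_val t h0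
        have hqg : ¬ q = g := fun h => h0 (hq.1 h)
        simp only [hqg, if_false]
        omega
    · simp only [omL, omR, Phi, dPure, hx, if_false, true_and, decide_true, if_true, ne_eq,
        not_true_eq_false, false_and, add_zero, h1, Kv_add_one, Bool.true_eq_false, and_false]
      by_cases h0 : t = 0
      · simp [hq.2 h0, h0, Kv]; ring
      · have hqg : ¬ q = g := fun h => h0 (hq.1 h)
        have hv : t.val ≠ 0 := by
          intro h; exact h0 ((ZMod.val_eq_zero t).1 h)
        have hK : Kv ((q - g) / π c) = t.val := by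
          rw [← ht]; simp [Kv, hv]
        simp only [hqg, if_false, hK]
        omega
  · by_cases hz : π c = 0
    · simp [omL, omR, Phi, dPure, hc, hz]
    · cases f <;> simp [omL, omR, Phi, dPure, hc, hz]

theorem identity (x : α) (hx : π x ≠ 0) (g : ZMod p) (s : ZMod p × Bool) (w : List α) :
    p * occ π x g s.1 w + wcnt (dPure π x) (omL π x g) s w + Phi π x g (run (dPure π x) s w) =
      w.count x + wcnt (dPure π x) (omR (p := p) x) s w + Phi π x g s := by
  induction w generalizing s with
  | nil => simp [occ, wcnt]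
  | cons c w ih =>
    have h := ih (dPure π x s c)
    have h1 := one_step π x hx g s c
    have hd : (dPure π x s c).1 = s.1 + π c := rfl
    rw [hd] at h
    simp only [occ, wcnt, run_cons, List.count_cons, mul_add]
    have hb : (if (c == x) = true then 1 else 0) = (if c = x then 1 else 0 : ℕ) := by
      by_cases hc : c = x <;> simp [hc]
    rw [hb]
    omega

theorem meas_wcnt [Finite α] (x : α) (ω : ZMod p × Bool → α → ℕ) (m : ℕ) [NeZero m]
    (h : ∀ st c, ω st c ≠ 0 → π c ≠ 0 ∧ st.2 = decide (c ≠ x)) :
    Meas 1 (fun w : List α => (wcnt (dPure π x) ω (0, false) w : ZMod m)) := by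
  have := Fintype.ofFinite α
  have hterm : ∀ i : (ZMod p × Bool) × α, Meas 1 (fun w : List α =>
      ((ω i.1 i.2 : ZMod m) * (tc π x i.1 i.2 (0, false) w : ZMod m))) := by
    rintro ⟨⟨e, f⟩, c⟩
    by_cases h0 : ω (e, f) c = 0
    · simp only [h0, Nat.cast_zero, zero_mul]
      exact meas_const 1 0
    · obtain ⟨hc, hf⟩ := h _ _ h0
      have hf' : f = decide (c ≠ x) := hf
      subst hf'
      exact (meas_tc π x c hc e m).comp (fun y => (ω (e, decide (c ≠ x)) c : ZMod m) * y)
  have hsum := (Meas.pi hterm).comp (fun v => ∑ i, v i)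
  refine hsum.congr ?_
  intro w
  rw [wcnt_eq_sum]
  push_cast
  rfl

/-- E. Occurrences of any letter at any phase can be counted modulo `m`. -/
theorem meas_occ [Finite α] (x : α) (g : ZMod p) (m : ℕ) [NeZero m] :
    Meas 1 (fun w : List α => (occ π x g 0 w : ZMod m)) := by
  by_cases hx : π x = 0
  · exact meas_occ_zero π x hx g m
  have hp0 : p ≠ 0 := (Fact.out : p.Prime).ne_zero
  have hppos : 0 < p := Nat.pos_of_ne_zero hp0
  have : NeZero (p * m) := ⟨Nat.mul_ne_zero hp0 (NeZero.ne m)⟩
  have hL := meas_wcnt π x (omL π x g) (p * m) (by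
    intro st c h
    unfold omL at h
    by_cases h1 : c = x ∧ st.2 = false
    · obtain ⟨rfl, h2⟩ := h1
      exact ⟨hx, by simp [h2]⟩
    · by_cases h2 : c ≠ x ∧ π c ≠ 0 ∧ st.2 = true
      · obtain ⟨h3, h4, h5⟩ := h2
        exact ⟨h4, by simp [h5, h3]⟩
      · simp [h1, h2] at h)
  have hR := meas_wcnt π x (omR (p := p) x) (p * m) (by
    intro st c h
    unfold omR at h
    by_cases h1 : c = x ∧ st.2 = false
    · obtain ⟨rfl, h2⟩ := h1
      exact ⟨hx, by simp [h2]⟩
    · simp [h1] at h)
  have hC := meas_count x (p * m)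
  have hS := meas_pure_state π x
  have hall := ((hL.prodMk hR).prodMk (hC.prodMk hS)).comp
    (fun y : ((ZMod (p * m) × ZMod (p * m)) × (ZMod (p * m) × (ZMod p × Bool))) =>
      ((((y.2.1 + y.1.2 - y.1.1 - (Phi π x g y.2.2 : ZMod (p * m))).val / p : ℕ) : ZMod m)))
  refine hall.congr ?_
  intro w
  have hid := identity π x hx g (0, false) w
  have hPhi0 : Phi π x g ((0 : ZMod p), false) = 0 := by simp [Phi]
  rw [hPhi0, add_zero] at hid
  have hcast : ((w.count x : ZMod (p * m)) + (wcnt (dPure π x) (omR (p := p) x) (0, false) w : ZMod (p * m))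
      - (wcnt (dPure π x) (omL π x g) (0, false) w : ZMod (p * m))
      - (Phi π x g (run (dPure π x) (0, false) w) : ZMod (p * m)))
      = ((p * occ π x g 0 w : ℕ) : ZMod (p * m)) := by
    have := congrArg (fun n : ℕ => (n : ZMod (p * m))) hid
    simp only [Nat.cast_add] at this
    rw [← this]; ring
  simp only [hcast, ZMod.val_natCast, Nat.mul_mod_mul_left]
  rw [Nat.mul_div_cancel_left _ hppos, ZMod.natCast_mod]

/-- The final phase is measurable. -/
theorem meas_phase [Finite α] : Meas 1 (fun w : List α => (w.map π).sum) := by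
  rcases isEmpty_or_nonempty α with hE | ⟨⟨x⟩⟩
  · refine (meas_const 1 (0 : ZMod p)).congr ?_
    intro w
    cases w with
    | nil => simp
    | cons a w => exact (hE.false a).elim
  refine ((meas_pure_state π x).comp Prod.fst).congr ?_
  intro w
  have : ∀ (s : ZMod p × Bool), (run (dPure π x) s w).1 = s.1 + (w.map π).sum := by
    induction w with
    | nil => intro s; simp
    | cons c w ih => intro s; rw [run_cons, ih]; simp [dPure, add_assoc]
  rw [this]; simp

end Vale.Agent.P329
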