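import Vale.Agent.P329.Defs

/-!
# Closure properties of the classes of languages of generalized star height at most `n`
-/

namespace Vale.Agent.P329

open Language

variable {α : Type}

/-- `GshLE n L`: the language `L` has generalized star height at most `n`. -/
def GshLE (n : ℕ) (L : Language α) : Prop := ∃ e : GRE α, e.lang = L ∧ e.sh ≤ n

theorem mem_compl_lang {L : Language α} {w : List α} : w ∈ (Lᶜ : Language α) ↔ w ∉ L := Iff.rfl

/-- The language of all words satisfying the predicate `P`. -/
def langOf (P : List α → Prop) : Language α := {w | P w}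

@[simp] theorem mem_langOf {P : List α → Prop} {w : List α} : w ∈ langOf P ↔ P w := Iff.rfl

theorem GshLE.mono {m n : ℕ} {L : Language α} (h : m ≤ n) (hL : GshLE m L) : GshLE n L := by
  obtain ⟨e, he, hs⟩ := hL
  exact ⟨e, he, hs.trans h⟩

theorem gshLE_zero (n : ℕ) : GshLE n (0 : Language α) := ⟨GRE.zero, rfl, Nat.zero_le _⟩

theorem gshLE_one (n : ℕ) : GshLE n (1 : Language α) := ⟨GRE.one, rfl, Nat.zero_le _⟩

theorem gshLE_letter (n : ℕ) (a : α) : GshLE n ({[a]} : Language α) :=
  ⟨GRE.letter a, rfl, Nat.zero_le _⟩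

theorem GshLE.add {n : ℕ} {L K : Language α} (hL : GshLE n L) (hK : GshLE n K) :
    GshLE n (L + K) := by
  obtain ⟨e, rfl, hs⟩ := hL
  obtain ⟨f, rfl, ht⟩ := hK
  exact ⟨GRE.plus e f, rfl, max_le hs ht⟩

theorem GshLE.mul {n : ℕ} {L K : Language α} (hL : GshLE n L) (hK : GshLE n K) :
    GshLE n (L * K) := by
  obtain ⟨e, rfl, hs⟩ := hL
  obtain ⟨f, rfl, ht⟩ := hK
  exact ⟨GRE.cat e f, rfl, max_le hs ht⟩

theorem GshLE.compl {n : ℕ} {L : Language α} (hL : GshLE n L) : GshLE n (Lᶜ) := by
  obtain ⟨e, rfl, hs⟩ := hL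
  exact ⟨GRE.neg e, rfl, hs⟩

theorem GshLE.star {n : ℕ} {L : Language α} (hL : GshLE n L) : GshLE (n + 1) (KStar.kstar L) := by
  obtain ⟨e, rfl, hs⟩ := hL
  exact ⟨GRE.star e, rfl, Nat.succ_le_succ hs⟩

theorem GshLE.inf {n : ℕ} {L K : Language α} (hL : GshLE n L) (hK : GshLE n K) :
    GshLE n (L ⊓ K) := by
  have h : L ⊓ K = (Lᶜ + Kᶜ)ᶜ := by
    ext w
    rw [mem_compl_lang, Language.mem_add, mem_compl_lang, mem_compl_lang, Language.mem_inf]
    tauto
  rw [h]
  exact (hL.compl.add hK.compl).compl

theorem gshLE_top (n : ℕ) : GshLE n (⊤ : Language α) := by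
  have h : (⊤ : Language α) = (0 : Language α)ᶜ := by
    ext w
    rw [mem_compl_lang]
    simp only [Language.notMem_zero, not_false_eq_true, iff_true]
    trivial
  rw [h]
  exact (gshLE_zero n).compl

/-- Set-builder versions. -/
theorem GshLE.and {n : ℕ} {P Q : List α → Prop} (hP : GshLE n (langOf fun w => P w)) (hQ : GshLE n (langOf fun w => Q w)) :
    GshLE n (langOf fun w => P w ∧ Q w) := hP.inf hQ

theorem GshLE.or {n : ℕ} {P Q : List α → Prop} (hP : GshLE n (langOf fun w => P w)) (hQ : GshLE n (langOf fun w => Q w)) :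
    GshLE n (langOf fun w => P w ∨ Q w) := hP.add hQ

theorem GshLE.not {n : ℕ} {P : List α → Prop} (hP : GshLE n (langOf fun w => P w)) :
    GshLE n (langOf fun w => ¬ P w) := hP.compl

theorem gshLE_const (n : ℕ) (P : Prop) : GshLE n (langOf fun _w : List α => P) := by
  by_cases h : P
  · have : (langOf fun _w : List α => P) = ⊤ := by
      ext w; simp only [mem_langOf, h, true_iff]; trivial
    rw [this]; exact gshLE_top n
  · have : (langOf fun _w : List α => P) = 0 := by
      ext w; simp only [mem_langOf, h, false_iff]; exact Language.notMem_zero w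
    rw [this]; exact gshLE_zero n

theorem GshLE.congr {n : ℕ} {L K : Language α} (hL : GshLE n L) (h : ∀ w, w ∈ K ↔ w ∈ L) :
    GshLE n K := by
  have : K = L := Language.ext h
  rw [this]; exact hL

theorem GshLE.exists_finset {n : ℕ} {ι : Type*} (s : Finset ι) {P : ι → List α → Prop}
    (h : ∀ i ∈ s, GshLE n (langOf fun w => P i w)) : GshLE n (langOf fun w => ∃ i ∈ s, P i w) := by
  classical
  induction s using Finset.induction_on with
  | empty =>
    exact (gshLE_const n False).congr (by intro w; simp [mem_langOf])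
  | insert a s ha ih =>
    have h1 := h a (Finset.mem_insert_self a s)
    have h2 := ih (fun i hi => h i (Finset.mem_insert_of_mem hi))
    exact (h1.or h2).congr (by intro w; simp [mem_langOf])

theorem GshLE.exists {n : ℕ} {ι : Type*} [Finite ι] {P : ι → List α → Prop}
    (h : ∀ i, GshLE n (langOf fun w => P i w)) : GshLE n (langOf fun w => ∃ i, P i w) := by
  classical
  have := Fintype.ofFinite ι
  exact (GshLE.exists_finset Finset.univ (fun i _ => h i)).congr
    (by intro w; simp [mem_langOf])

theorem GshLE.forall {n : ℕ} {ι : Type*} [Finite ι] {P : ι → List α → Prop}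
    (h : ∀ i, GshLE n (langOf fun w => P i w)) : GshLE n (langOf fun w => ∀ i, P i w) := by
  have := (GshLE.exists (fun i => (h i).not)).not
  exact this.congr (by intro w; simp [mem_langOf])

theorem GshLE.pow {n : ℕ} {L : Language α} (hL : GshLE n L) (k : ℕ) : GshLE n (L ^ k) := by
  induction k with
  | zero => rw [pow_zero]; exact gshLE_one n
  | succ k ih => rw [pow_succ]; exact ih.mul hL

theorem gshLE_singleton (n : ℕ) (w : List α) : GshLE n ({w} : Language α) := by
  induction w with
  | nil => exact gshLE_one n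
  | cons a w ih =>
    have : ({a :: w} : Language α) = {[a]} * {w} := by
      ext v
      rw [Language.mem_mul]
      constructor
      · intro hv
        exact ⟨[a], rfl, w, rfl, by simpa using hv.symm⟩
      · rintro ⟨x, hx, y, hy, rfl⟩
        have hx' : x = [a] := hx
        have hy' : y = w := hy
        subst hx' hy'
        rfl
    rw [this]
    exact (gshLE_letter n a).mul ih

/-- The set of one-letter words with letter in a given set. -/
theorem gshLE_letters [Finite α] (n : ℕ) (B : Set α) :
    GshLE n (langOf fun w => ∃ a ∈ B, w = [a]) := by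
  have h : ∀ a : α, GshLE n (langOf fun w => a ∈ B ∧ w = [a]) := fun a =>
    (gshLE_const n (a ∈ B)).and (gshLE_letter n a)
  exact (GshLE.exists h).congr (by intro w; simp [mem_langOf])

/-- Words containing a letter from `B`. -/
theorem gshLE_contains [Finite α] (n : ℕ) (B : Set α) :
    GshLE n (langOf fun w => ∃ a ∈ w, a ∈ B) := by
  have := ((gshLE_top (α := α) n).mul (gshLE_letters n B)).mul (gshLE_top n)
  refine this.congr ?_
  intro w
  rw [mem_langOf, Language.mem_mul]
  constructor
  · rintro ⟨a, haw, haB⟩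
    obtain ⟨s, t, rfl⟩ := List.append_of_mem haw
    refine ⟨s ++ [a], ?_, t, trivial, by simp⟩
    rw [Language.mem_mul]
    exact ⟨s, trivial, [a], ⟨a, haB, rfl⟩, rfl⟩
  · rintro ⟨x, hx, t, -, rfl⟩
    rw [Language.mem_mul] at hx
    obtain ⟨s, -, y, ⟨a, haB, rfl⟩, rfl⟩ := hx
    exact ⟨a, by simp, haB⟩

/-- The star of a sub-alphabet is star-free. -/
theorem gshLE_subalphabet [Finite α] (n : ℕ) (B : Set α) :
    GshLE n (langOf fun w => ∀ a ∈ w, a ∈ B) := by
  refine (gshLE_contains n Bᶜ).not.congr ?_
  intro w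
  simp [mem_langOf]

/-! ### Measurable functions -/

/-- A function on words is `n`-measurable if all its fibres have generalized star height at most
`n`. -/
def Meas (n : ℕ) {β : Type*} (f : List α → β) : Prop := ∀ b, GshLE n (langOf fun w => f w = b)

theorem Meas.preimage {n : ℕ} {β : Type*} [Finite β] {f : List α → β} (hf : Meas n f)
    (S : Set β) : GshLE n (langOf fun w => f w ∈ S) := by
  have h : ∀ b : β, GshLE n (langOf fun w => b ∈ S ∧ f w = b) := fun b =>
    (gshLE_const n (b ∈ S)).and (hf b)
  exact (GshLE.exists h).congr (by intro w; simp [mem_langOf])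

theorem Meas.comp {n : ℕ} {β γ : Type*} [Finite β] {f : List α → β} (hf : Meas n f)
    (g : β → γ) : Meas n (fun w => g (f w)) := fun c => hf.preimage {b | g b = c}

theorem Meas.prodMk {n : ℕ} {β γ : Type*} {f : List α → β} {g : List α → γ}
    (hf : Meas n f) (hg : Meas n g) : Meas n (fun w => (f w, g w)) := by
  rintro ⟨b, c⟩
  exact ((hf b).and (hg c)).congr (by intro w; simp [mem_langOf])

theorem Meas.pi {n : ℕ} {ι : Type*} [Finite ι] {β : ι → Type*} {f : ∀ i, List α → β i}
    (hf : ∀ i, Meas n (f i)) : Meas n (fun w i => f i w) := by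
  intro b
  exact (GshLE.forall (fun i => hf i (b i))).congr
    (by intro w; simp [mem_langOf, funext_iff])

theorem Meas.congr {n : ℕ} {β : Type*} {f g : List α → β} (hf : Meas n f) (h : ∀ w, g w = f w) :
    Meas n g := by
  have : g = f := funext h
  rw [this]; exact hf

theorem Meas.mono {m n : ℕ} {β : Type*} {f : List α → β} (h : m ≤ n) (hf : Meas m f) :
    Meas n f := fun b => (hf b).mono h

theorem meas_const (n : ℕ) {β : Type*} (b : β) : Meas n (fun _ : List α => b) :=
  fun c => gshLE_const n (b = c)

/-- A language that is a union of fibres of a measurable map to a finite type. -/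
theorem Meas.of_factor {n : ℕ} {β : Type*} [Finite β] {f : List α → β} (hf : Meas n f)
    (L : Language α) (h : ∀ w w', f w = f w' → (w ∈ L ↔ w' ∈ L)) : GshLE n L := by
  refine (hf.preimage {b | ∃ w, f w = b ∧ w ∈ L}).congr ?_
  intro w
  rw [mem_langOf]
  constructor
  · intro hw; exact ⟨w, rfl, hw⟩
  · rintro ⟨w', hw', hL⟩; exact (h w' w hw').1 hL

end Vale.Agent.P329
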