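import Vale.Agent.P329.Levels

/-!
# Level counting for elementary abelian `p`-groups

For a finite commutative group `Q` of prime exponent `p` the number of occurrences of a letter at a
level `g : Q` is recovered, modulo any `m`, from the phase counts of all characters
`χ : Q →* Multiplicative (ZMod p)` (a rational Fourier inversion).
-/

namespace Vale.Agent.P329

open Language

theorem exists_addchar {V : Type} [AddCommGroup V] (p : ℕ) [Fact p.Prime] [Module (ZMod p) V]
    (v : V) (hv : v ≠ 0) : ∃ f : V →+ ZMod p, f v ≠ 0 := by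
  have h := (Module.forall_dual_apply_eq_zero_iff (ZMod p) v).not
  have h2 := h.2 hv
  rw [not_forall] at h2
  obtain ⟨f, hf⟩ := h2
  exact ⟨f.toAddMonoidHom, hf⟩

theorem exists_char {Q : Type} [CommGroup Q] (p : ℕ) [Fact p.Prime] (hQ : ∀ x : Q, x ^ p = 1)
    (z : Q) (hz : z ≠ 1) : ∃ χ : Q →* Multiplicative (ZMod p), χ z ≠ 1 := by
  let inst : Module (ZMod p) (Additive Q) := AddCommGroup.zmodModule (n := p) (fun x => by
    have := hQ x.toMul
    exact congrArg Additive.ofMul this)
  have hz' : (Additive.ofMul z ≠ 0) := fun h0 => hz (by simpa using h0)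
  obtain ⟨f, hf⟩ := exists_addchar p (Additive.ofMul z) hz'
  refine ⟨AddMonoidHom.toMultiplicativeRight f, ?_⟩
  intro h3
  apply hf
  exact h3

theorem card_char_ker {Q : Type} [CommGroup Q] [Finite Q] (p : ℕ) [Fact p.Prime]
    (hQ : ∀ x : Q, x ^ p = 1) (z : Q) (hz : z ≠ 1) :
    Nat.card {χ : Q →* Multiplicative (ZMod p) // χ z = 1} * p =
      Nat.card (Q →* Multiplicative (ZMod p)) := by
  let ev : (Q →* Multiplicative (ZMod p)) →* Multiplicative (ZMod p) := MonoidHom.eval z
  have h1 := Subgroup.card_mul_index ev.ker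
  rw [Subgroup.index_ker] at h1
  have hcard : Nat.card (Multiplicative (ZMod p)) = p := by
    rw [Nat.card_eq_fintype_card]
    simp [ZMod.card]
  have : Fact (Nat.card (Multiplicative (ZMod p))).Prime := ⟨by rw [hcard]; exact Fact.out⟩
  have h2 : ev.range = ⊤ := by
    rcases Subgroup.eq_bot_or_eq_top_of_prime_card ev.range with h | h
    · exfalso
      obtain ⟨χ, hχ⟩ := exists_char p hQ z hz
      apply hχ
      have : ev χ ∈ ev.range := ⟨χ, rfl⟩
      rw [h, Subgroup.mem_bot] at this
      exact this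
    · exact h
  rw [h2, Subgroup.card_top, hcard] at h1
  exact h1

section fourier

variable {Q : Type} [CommGroup Q] [Fintype Q] [DecidableEq Q] (p : ℕ) [Fact p.Prime]
  [Fintype (Q →* Multiplicative (ZMod p))]

theorem sum_char_agree (hQ : ∀ x : Q, x ^ p = 1) (x y : Q) :
    (p : ℤ) * ∑ χ : Q →* Multiplicative (ZMod p), (if χ y = χ x then (1 : ℤ) else 0) =
      if y = x then (p : ℤ) * Fintype.card (Q →* Multiplicative (ZMod p))
      else Fintype.card (Q →* Multiplicative (ZMod p)) := by
  by_cases hxy : y = x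
  · subst hxy
    simp
  · rw [if_neg hxy]
    have hz : y * x⁻¹ ≠ 1 := fun h => hxy (mul_inv_eq_one.1 h)
    have h1 := card_char_ker p hQ (y * x⁻¹) hz
    rw [Nat.card_eq_fintype_card, Nat.card_eq_fintype_card, Fintype.card_subtype] at h1
    have h2 : ∑ χ : Q →* Multiplicative (ZMod p), (if χ y = χ x then (1 : ℤ) else 0) =
        ((Finset.univ.filter (fun χ : Q →* Multiplicative (ZMod p) => χ (y * x⁻¹) = 1)).card : ℤ) := by
      rw [Finset.card_filter]
      push_cast
      refine Finset.sum_congr rfl ?_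
      intro χ _
      have : χ (y * x⁻¹) = 1 ↔ χ y = χ x := by
        rw [map_mul, map_inv, mul_inv_eq_one]
      simp only [this]
    rw [h2, ← h1]
    push_cast
    ring

theorem fourier_dvd (hQ : ∀ x : Q, x ^ p = 1) (δ : Q → ℤ) (e : ℕ)
    (h : ∀ (χ : Q →* Multiplicative (ZMod p)) (t : Multiplicative (ZMod p)),
      ((e * (Fintype.card (Q →* Multiplicative (ZMod p)) * (p - 1)) : ℕ) : ℤ) ∣
        ∑ y : Q, if χ y = t then δ y else 0) (x : Q) : (e : ℤ) ∣ δ x := by
  set M : ℕ := Fintype.card (Q →* Multiplicative (ZMod p)) with hM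
  have hMpos : 0 < M := Fintype.card_pos
  have hp1 : 1 < p := (Fact.out : p.Prime).one_lt
  set K : ℤ := ((e * (M * (p - 1)) : ℕ) : ℤ) with hK
  have hS : K ∣ ∑ χ : Q →* Multiplicative (ZMod p), ∑ y : Q, if χ y = χ x then δ y else 0 :=
    Finset.dvd_sum (fun χ _ => h χ (χ x))
  have hT : K ∣ ∑ y : Q, δ y := by
    have := h 1 1
    simpa using this
  have hswap : (p : ℤ) * ∑ χ : Q →* Multiplicative (ZMod p), ∑ y : Q, (if χ y = χ x then δ y else 0)
      = (M : ℤ) * ∑ y : Q, δ y + ((p : ℤ) * M - M) * δ x := by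
    rw [Finset.sum_comm]
    have h3 : ∀ y : Q, ∑ χ : Q →* Multiplicative (ZMod p), (if χ y = χ x then δ y else 0) =
        δ y * ∑ χ : Q →* Multiplicative (ZMod p), (if χ y = χ x then (1 : ℤ) else 0) := by
      intro y
      rw [Finset.mul_sum]
      refine Finset.sum_congr rfl ?_
      intro χ _
      split_ifs <;> simp
    simp only [h3]
    rw [Finset.mul_sum]
    have h4 : ∀ y : Q, (p : ℤ) * (δ y * ∑ χ : Q →* Multiplicative (ZMod p),
        (if χ y = χ x then (1 : ℤ) else 0)) =
        (M : ℤ) * δ y + (if y = x then ((p : ℤ) * M - M) * δ y else 0) := by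
      intro y
      have := sum_char_agree p hQ x y
      rw [mul_left_comm, this]
      split_ifs <;> ring
    simp only [h4]
    rw [Finset.sum_add_distrib, ← Finset.mul_sum, Finset.sum_ite_eq' Finset.univ x]
    simp
  have h5 : K ∣ ((p : ℤ) * M - M) * δ x := by
    have h6 : ((p : ℤ) * M - M) * δ x =
        (p : ℤ) * ∑ χ : Q →* Multiplicative (ZMod p), ∑ y : Q, (if χ y = χ x then δ y else 0)
          - (M : ℤ) * ∑ y : Q, δ y := by
      rw [hswap]; ring
    rw [h6]
    exact dvd_sub (Dvd.dvd.mul_left hS _) (Dvd.dvd.mul_left hT _)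
  have h7 : K = (e : ℤ) * ((p : ℤ) * M - M) := by
    rw [hK]
    push_cast [Nat.cast_sub hp1.le]
    ring
  rw [h7, mul_comm (e : ℤ)] at h5
  have h8 : ((p : ℤ) * M - M) ≠ 0 := by
    have : ((p : ℤ) * M - M) = ((p : ℤ) - 1) * M := by ring
    rw [this]
    have h9 : (1 : ℤ) < p := by exact_mod_cast hp1
    have h10 : (0 : ℤ) < M := by exact_mod_cast hMpos
    have : 0 < ((p : ℤ) - 1) * M := mul_pos (by linarith) h10
    exact this.ne'
  exact (mul_dvd_mul_iff_left h8).1 h5

end fourier

section link

variable {α : Type} [DecidableEq α] {Q : Type} [CommGroup Q] [Fintype Q] [DecidableEq Q]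
  {p : ℕ} [Fact p.Prime] (κ : α → Q) (χ : Q →* Multiplicative (ZMod p))

theorem occ_eq_sum (x : α) (t : ZMod p) (w : List α) (q : Q) :
    occ (fun a => Multiplicative.toAdd (χ (κ a))) x t (Multiplicative.toAdd (χ q)) w =
      ∑ g : Q, if χ g = Multiplicative.ofAdd t then occQ κ x g q w else 0 := by
  induction w generalizing q with
  | nil => simp [occ, occQ]
  | cons c w ih =>
    simp only [occ, occQ]
    have h1 : Multiplicative.toAdd (χ q) + Multiplicative.toAdd (χ (κ c)) =
        Multiplicative.toAdd (χ (q * κ c)) := by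
      rw [map_mul]; rfl
    rw [h1, ih]
    have h2 : ∀ g : Q, (if χ g = Multiplicative.ofAdd t then
        (if c = x ∧ q = g then 1 else 0) + occQ κ x g (q * κ c) w else 0) =
        (if g = q then (if c = x ∧ Multiplicative.toAdd (χ q) = t then 1 else 0) else 0) +
        (if χ g = Multiplicative.ofAdd t then occQ κ x g (q * κ c) w else 0) := by
      intro g
      by_cases hg : g = q
      · subst hg
        by_cases ht : χ g = Multiplicative.ofAdd t
        · have ht' : Multiplicative.toAdd (χ g) = t := by rw [ht]; rfl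
          simp [ht, ht']
        · have ht' : ¬ Multiplicative.toAdd (χ g) = t := by
            intro h; apply ht; rw [← h]; rfl
          simp [ht, ht']
      · have hg' : ¬ q = g := fun h => hg h.symm
        simp [hg, hg']
    simp only [h2]
    rw [Finset.sum_add_distrib, Finset.sum_ite_eq' Finset.univ q]
    simp

theorem toAdd_char_prod (w : List α) :
    Multiplicative.toAdd (χ ((w.map κ).prod)) =
      (w.map (fun a => Multiplicative.toAdd (χ (κ a)))).sum := by
  induction w with
  | nil => simp
  | cons c w ih =>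
    rw [List.map_cons, List.prod_cons, map_mul, List.map_cons, List.sum_cons, ← ih]
    rfl

end link

theorem meas_occQ {Q : Type} [CommGroup Q] [Finite Q] [DecidableEq Q] (p : ℕ) [Fact p.Prime]
    (hQ : ∀ x : Q, x ^ p = 1) {α : Type} [Finite α] [DecidableEq α] (κ : α → Q)
    (x : α) (g : Q) (m : ℕ) [NeZero m] :
    Meas 1 (fun w : List α => (occQ κ x g 1 w : ZMod m)) := by
  classical
  have := Fintype.ofFinite Q
  have : Finite (Q →* Multiplicative (ZMod p)) := DFunLike.finite _
  have := Fintype.ofFinite (Q →* Multiplicative (ZMod p))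
  have hp1 : 1 < p := (Fact.out : p.Prime).one_lt
  set K : ℕ := m * (Fintype.card (Q →* Multiplicative (ZMod p)) * (p - 1)) with hK
  have hK0 : NeZero K := ⟨by
    rw [hK]
    have h1 : Fintype.card (Q →* Multiplicative (ZMod p)) ≠ 0 := Fintype.card_ne_zero
    have h2 : p - 1 ≠ 0 := by omega
    exact Nat.mul_ne_zero (NeZero.ne m) (Nat.mul_ne_zero h1 h2)⟩
  have hF : Meas 1 (fun (w : List α) (i : (Q →* Multiplicative (ZMod p)) × ZMod p) =>
      (occ (fun a => Multiplicative.toAdd (i.1 (κ a))) x i.2 0 w : ZMod K)) :=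
    Meas.pi (fun i => meas_occ (fun a => Multiplicative.toAdd (i.1 (κ a))) x i.2 K)
  intro b
  refine hF.of_factor _ ?_
  intro w w' hww
  have hkey : (occQ κ x g 1 w : ZMod m) = (occQ κ x g 1 w' : ZMod m) := by
    have hd := fourier_dvd p hQ
      (fun y => (occQ κ x y 1 w' : ℤ) - (occQ κ x y 1 w : ℤ)) m (by
        intro χ t
        have h1 := congrFun hww (χ, Multiplicative.toAdd t)
        simp only at h1
        have h0 : (0 : ZMod p) = Multiplicative.toAdd (χ 1) := by rw [map_one]; rfl
        rw [h0, occ_eq_sum, occ_eq_sum] at h1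
        have h2 : ((∑ g : Q, if χ g = t then occQ κ x g 1 w else 0 : ℕ) : ZMod K) =
            ((∑ g : Q, if χ g = t then occQ κ x g 1 w' else 0 : ℕ) : ZMod K) := h1
        have h3 := (ZMod.intCast_eq_intCast_iff_dvd_sub
          ((∑ g : Q, if χ g = t then occQ κ x g 1 w else 0 : ℕ) : ℤ)
          ((∑ g : Q, if χ g = t then occQ κ x g 1 w' else 0 : ℕ) : ℤ) K).1 (by
            push_cast
            push_cast at h2
            exact h2)
        have h4 : (∑ y : Q, if χ y = t then ((occQ κ x y 1 w' : ℤ) - (occQ κ x y 1 w : ℤ)) else 0)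
            = ((∑ g : Q, if χ g = t then occQ κ x g 1 w' else 0 : ℕ) : ℤ) -
              ((∑ g : Q, if χ g = t then occQ κ x g 1 w else 0 : ℕ) : ℤ) := by
          push_cast
          rw [← Finset.sum_sub_distrib]
          refine Finset.sum_congr rfl ?_
          intro y _
          split_ifs <;> simp
        rw [h4]
        exact h3) g
    have := (ZMod.intCast_eq_intCast_iff_dvd_sub (occQ κ x g 1 w : ℤ) (occQ κ x g 1 w' : ℤ) m).2 hd
    exact_mod_cast this
  simp only [mem_langOf, hkey]

theorem meas_levelQ {Q : Type} [CommGroup Q] [Finite Q] (p : ℕ) [Fact p.Prime]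
    (hQ : ∀ x : Q, x ^ p = 1) {α : Type} [Finite α] (κ : α → Q) :
    Meas 1 (fun w : List α => (w.map κ).prod) := by
  classical
  have := Fintype.ofFinite Q
  have : Finite (Q →* Multiplicative (ZMod p)) := DFunLike.finite _
  have hF : Meas 1 (fun (w : List α) (χ : Q →* Multiplicative (ZMod p)) =>
      (w.map (fun a => Multiplicative.toAdd (χ (κ a)))).sum) :=
    Meas.pi (fun χ => meas_phase (fun a => Multiplicative.toAdd (χ (κ a))))
  intro b
  refine hF.of_factor _ ?_
  intro w w' hww
  have hkey : (w.map κ).prod = (w'.map κ).prod := by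
    by_contra hne
    have hz : (w.map κ).prod * ((w'.map κ).prod)⁻¹ ≠ 1 := fun h => hne (mul_inv_eq_one.1 h)
    obtain ⟨χ, hχ⟩ := exists_char p hQ _ hz
    apply hχ
    have h1 := congrFun hww χ
    rw [← toAdd_char_prod, ← toAdd_char_prod] at h1
    rw [map_mul, map_inv, mul_inv_eq_one]
    exact Multiplicative.toAdd.injective h1
  simp only [mem_langOf, hkey]

/-- Groups with an abelian normal subgroup whose quotient is an elementary abelian `p`-group. -/
theorem gshLE_of_abelian_by_elementary {G : Type} [Group G] [Finite G] (N : Subgroup G)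
    [N.Normal] (hN : ∀ a ∈ N, ∀ b ∈ N, a * b = b * a) (p : ℕ) (hp : p.Prime)
    (hpow : ∀ g : G, g ^ p ∈ N) (hcomm : ∀ g h : G, g * h * g⁻¹ * h⁻¹ ∈ N)
    {α : Type} [Finite α] (φ : α → G) (T : Set G) :
    GshLE 1 (langOf fun w : List α => (w.map φ).prod ∈ T) := by
  classical
  have : Fact p.Prime := ⟨hp⟩
  let _ : CommGroup (G ⧸ N) :=
    { (inferInstance : Group (G ⧸ N)) with
      mul_comm := by
        intro a b
        induction a using QuotientGroup.induction_on with
        | H a =>
          induction b using QuotientGroup.induction_on with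
          | H b =>
            rw [← QuotientGroup.mk_mul, ← QuotientGroup.mk_mul, QuotientGroup.eq]
            have h := hcomm b⁻¹ a⁻¹
            have e : (a * b)⁻¹ * (b * a) = b⁻¹ * a⁻¹ * b⁻¹⁻¹ * a⁻¹⁻¹ := by group
            rw [e]; exact h }
  have hQ : ∀ x : G ⧸ N, x ^ p = 1 := by
    intro x
    induction x using QuotientGroup.induction_on with
    | H a =>
      rw [← QuotientGroup.mk_pow]
      exact (QuotientGroup.eq_one_iff _).2 (hpow a)
  refine gshLE_of_levels (QuotientGroup.mk' N) (QuotientGroup.mk'_surjective N) ?_ φ ?_ ?_ T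
  · intro a b ha hb
    exact hN a ((QuotientGroup.eq_one_iff a).1 ha) b ((QuotientGroup.eq_one_iff b).1 hb)
  · exact meas_levelQ p hQ _
  · intro x g m _
    exact meas_occQ p hQ _ x g m

end Vale.Agent.P329
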