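import Vale.Agent.P329.Basic

/-!
# Transfer of generalized star height along an injective renaming of letters
-/

namespace Vale.Agent.P329

open Language

theorem mem_map_lang {α β : Type} (f : β → α) (L : Language β) (w : List α) :
    w ∈ Language.map f L ↔ ∃ v ∈ L, List.map f v = w := Iff.rfl

theorem gre_map_injective {α β : Type} [Finite α] (f : β → α)
    (hf : Function.Injective f) (e : GRE β) :
    GshLE e.sh (Language.map f e.lang) := by
  induction e with
  | zero =>
    show GshLE _ (Language.map f 0)
    rw [map_zero]
    exact gshLE_zero _
  | one =>
    show GshLE _ (Language.map f 1)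
    rw [map_one]
    exact gshLE_one _
  | letter a =>
    refine (gshLE_letter _ (f a)).congr ?_
    intro w
    rw [mem_map_lang]
    constructor
    · rintro ⟨v, hv, rfl⟩
      have hv' : v = [a] := hv
      subst hv'
      rfl
    · intro hw
      have hw' : w = [f a] := hw
      subst hw'
      exact ⟨[a], rfl, rfl⟩
  | plus P Q ihP ihQ =>
    show GshLE (max P.sh Q.sh) (Language.map f (P.lang + Q.lang))
    rw [map_add]
    exact (ihP.mono (le_max_left _ _)).add (ihQ.mono (le_max_right _ _))
  | cat P Q ihP ihQ =>
    show GshLE (max P.sh Q.sh) (Language.map f (P.lang * Q.lang))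
    rw [map_mul]
    exact (ihP.mono (le_max_left _ _)).mul (ihQ.mono (le_max_right _ _))
  | neg P ih =>
    show GshLE P.sh (Language.map f (P.lang)ᶜ)
    refine (ih.compl.inf (gshLE_subalphabet P.sh (Set.range f))).congr ?_
    intro w
    rw [Language.mem_inf, mem_compl_lang, mem_langOf, mem_map_lang, mem_map_lang]
    constructor
    · rintro ⟨v, hv, rfl⟩
      refine ⟨?_, ?_⟩
      · rintro ⟨v', hv', h⟩
        have : v' = v := List.map_injective_iff.2 hf h
        subst this
        exact hv hv'
      · intro a ha
        obtain ⟨b, -, rfl⟩ := List.mem_map.1 ha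
        exact ⟨b, rfl⟩
    · rintro ⟨h1, h2⟩
      have hex : ∃ v : List β, List.map f v = w := by
        clear h1
        induction w with
        | nil => exact ⟨[], rfl⟩
        | cons a w ihw =>
          obtain ⟨b, rfl⟩ := h2 a (by simp)
          obtain ⟨v, rfl⟩ := ihw (fun c hc => h2 c (by simp [hc]))
          exact ⟨b :: v, rfl⟩
      obtain ⟨v, rfl⟩ := hex
      refine ⟨v, ?_, rfl⟩
      intro hv
      exact h1 ⟨v, hv, rfl⟩
  | star P ih =>
    show GshLE (P.sh + 1) (Language.map f (KStar.kstar P.lang))
    rw [Language.map_kstar]
    exact ih.star

/-- If `f : β → α` is injective and `α` is finite then the image (letter by letter) of a language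
of generalized star height at most `n` has generalized star height at most `n`.
Proof: induction on the expression; the complement is taken relative to the star-free language
of all words with letters in the range of `f` (`gshLE_subalphabet`). -/
theorem GshLE.map_injective {α β : Type} [Finite α] {n : ℕ} (f : β → α)
    (hf : Function.Injective f) {L : Language β} (hL : GshLE n L) :
    GshLE n (Language.map f L) := by
  obtain ⟨e, rfl, hs⟩ := hL
  exact (gre_map_injective f hf e).mono hs

end Vale.Agent.P329
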