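import Vale.Agent.P329.Arith

/-!
# From phase counts to groups with an abelian normal subgroup of prime index
-/

namespace Vale.Agent.P329

open Language

section formula

variable {G : Type} [Group G] {p : ℕ} [Fact p.Prime] {K : Type} [CommGroup K] (ι : K →* G)
  {α : Type} [DecidableEq α] [Fintype α] (φ : α → G) (π : α → ZMod p) (τ : ZMod p → G)
  (c : α × ZMod p → K)

theorem prod_formula (hc : ∀ a q, ι (c (a, q)) = τ q * φ a * (τ (q + π a))⁻¹)
    (w : List α) (q : ZMod p) :
    τ q * (w.map φ).prod =
      ι (∏ i : α × ZMod p, c i ^ occ π i.1 i.2 q w) * τ (q + (w.map π).sum) := by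
  induction w generalizing q with
  | nil => simp [occ]
  | cons a w ih =>
    have h1 : (∏ i : α × ZMod p, c i ^ occ π i.1 i.2 q (a :: w)) =
        c (a, q) * ∏ i : α × ZMod p, c i ^ occ π i.1 i.2 (q + π a) w := by
      simp only [occ, pow_add, Finset.prod_mul_distrib]
      congr 1
      rw [Finset.prod_eq_single (a, q)]
      · simp
      · rintro ⟨b, r⟩ - hne
        have : ¬ (a = b ∧ q = r) := by
          rintro ⟨rfl, rfl⟩; exact hne rfl
        simp [this]
      · intro h; exact absurd (Finset.mem_univ _) h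
    rw [h1, map_mul, hc, List.map_cons, List.prod_cons, List.map_cons, List.sum_cons]
    have h2 := ih (q + π a)
    calc τ q * (φ a * (w.map φ).prod)
        = τ q * φ a * (τ (q + π a))⁻¹ * (τ (q + π a) * (w.map φ).prod) := by group
      _ = _ := by rw [h2]; simp only [mul_assoc, add_assoc]

end formula

/-- F1. Groups with a surjection onto `ZMod p` with commutative kernel. -/
theorem gshLE_of_hom {G : Type} [Group G] [Finite G] (p : ℕ) [Fact p.Prime]
    (πG : G →* Multiplicative (ZMod p)) (hsurj : Function.Surjective πG)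
    (hab : ∀ a b : G, πG a = 1 → πG b = 1 → a * b = b * a)
    {α : Type} [Finite α] (φ : α → G) (T : Set G) :
    GshLE 1 (langOf fun w : List α => (w.map φ).prod ∈ T) := by
  classical
  have := Fintype.ofFinite α
  let _ : CommGroup πG.ker :=
    { (inferInstance : Group πG.ker) with
      mul_comm := fun a b => Subtype.ext (hab a b (MonoidHom.mem_ker.1 a.2)
        (MonoidHom.mem_ker.1 b.2)) }
  let π : α → ZMod p := fun a => Multiplicative.toAdd (πG (φ a))
  let τ : ZMod p → G := fun q => Function.surjInv hsurj (Multiplicative.ofAdd q)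
  have hτ : ∀ q, πG (τ q) = Multiplicative.ofAdd q := fun q => Function.surjInv_eq hsurj _
  let c : α × ZMod p → πG.ker := fun i =>
    ⟨τ i.2 * φ i.1 * (τ (i.2 + π i.1))⁻¹, by
      rw [MonoidHom.mem_ker, map_mul, map_mul, map_inv, hτ, hτ]
      have : πG (φ i.1) = Multiplicative.ofAdd (π i.1) := rfl
      rw [this, ← ofAdd_add, ← ofAdd_neg, ← ofAdd_add]
      simp⟩
  have hform := prod_formula (πG.ker.subtype) φ π τ c (fun a q => rfl)
  set e : ℕ := Nat.card πG.ker with he
  have : NeZero e := ⟨Nat.card_pos.ne'⟩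
  have hmeas : Meas 1 (fun w : List α =>
      ((w.map π).sum, fun i : α × ZMod p => (occ π i.1 i.2 0 w : ZMod e))) :=
    (meas_phase π).prodMk (Meas.pi (fun i : α × ZMod p => meas_occ π i.1 i.2 e))
  refine hmeas.of_factor _ ?_
  intro w w' hww
  simp only [Prod.mk.injEq] at hww
  obtain ⟨h1, h2⟩ := hww
  have hprod : (w.map φ).prod = (w'.map φ).prod := by
    have e1 := hform w 0
    have e2 := hform w' 0
    have h3 : (∏ i : α × ZMod p, c i ^ occ π i.1 i.2 0 w) =
        ∏ i : α × ZMod p, c i ^ occ π i.1 i.2 0 w' := by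
      refine Finset.prod_congr rfl ?_
      intro i _
      have h4 := congrFun h2 i
      rw [ZMod.natCast_eq_natCast_iff'] at h4
      rw [← pow_mod_natCard, ← he, h4, he, pow_mod_natCard]
    rw [h3, h1, ← e2] at e1
    exact mul_left_cancel e1
  simp only [mem_langOf, hprod]

/-- F2. Groups with an abelian normal subgroup of prime index. -/
theorem gshLE_of_abelian_normal_prime_index {G : Type} [Group G] [Finite G] (N : Subgroup G)
    [N.Normal] (hN : ∀ a ∈ N, ∀ b ∈ N, a * b = b * a) (hp : N.index.Prime)
    {α : Type} [Finite α] (φ : α → G) (T : Set G) :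
    GshLE 1 (langOf fun w : List α => (w.map φ).prod ∈ T) := by
  have : Fact N.index.Prime := ⟨hp⟩
  have hcard : Nat.card (G ⧸ N) = N.index := rfl
  have hcard2 : Nat.card (Multiplicative (ZMod N.index)) = N.index := by
    rw [Nat.card_eq_fintype_card]
    simp [ZMod.card]
  let E : (G ⧸ N) ≃* Multiplicative (ZMod N.index) := mulEquivOfPrimeCardEq hcard hcard2
  let πG : G →* Multiplicative (ZMod N.index) := E.toMonoidHom.comp (QuotientGroup.mk' N)
  have hker : ∀ a, πG a = 1 → a ∈ N := by
    intro a ha
    have : E (QuotientGroup.mk' N a) = 1 := ha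
    rw [EmbeddingLike.map_eq_one_iff] at this
    exact (QuotientGroup.eq_one_iff a).1 this
  refine gshLE_of_hom N.index πG ?_ ?_ φ T
  · exact E.surjective.comp (QuotientGroup.mk'_surjective N)
  · intro a b ha hb
    exact hN a (hker a ha) b (hker b hb)

end Vale.Agent.P329
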