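import Vale.Agent.P329.GroupPart

/-!
# Counting letters at levels in an arbitrary finite quotient group

If the kernel of `πG : G →* Q` is commutative, the image of a word in `G` is determined by its
final level in `Q` and by the numbers of occurrences of every letter at every level, taken modulo
the order of the kernel.
-/

namespace Vale.Agent.P329

open Language

section levels

variable {α : Type} [DecidableEq α] {Q : Type} [Group Q] [DecidableEq Q] (κ : α → Q)

/-- Number of occurrences of the letter `x` read at level `g`; the level of a position is the start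
level (the argument) times the product of the `κ`-values of the letters read before. -/
def occQ (x : α) (g : Q) : Q → List α → ℕ
  | _, [] => 0
  | q, c :: w => (if c = x ∧ q = g then 1 else 0) + occQ x g (q * κ c) w

end levels

section formula

variable {G : Type} [Group G] {Q : Type} [Group Q] [DecidableEq Q] [Fintype Q]
  {K : Type} [CommGroup K] (ι : K →* G)
  {α : Type} [DecidableEq α] [Fintype α] (φ : α → G) (κ : α → Q) (τ : Q → G)
  (c : α × Q → K)

theorem prod_formulaQ (hc : ∀ a q, ι (c (a, q)) = τ q * φ a * (τ (q * κ a))⁻¹)
    (w : List α) (q : Q) :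
    τ q * (w.map φ).prod =
      ι (∏ i : α × Q, c i ^ occQ κ i.1 i.2 q w) * τ (q * (w.map κ).prod) := by
  induction w generalizing q with
  | nil => simp [occQ]
  | cons a w ih =>
    have h1 : (∏ i : α × Q, c i ^ occQ κ i.1 i.2 q (a :: w)) =
        c (a, q) * ∏ i : α × Q, c i ^ occQ κ i.1 i.2 (q * κ a) w := by
      simp only [occQ, pow_add, Finset.prod_mul_distrib]
      congr 1
      rw [Finset.prod_eq_single (a, q)]
      · simp
      · rintro ⟨b, r⟩ - hne
        have : ¬ (a = b ∧ q = r) := by
          rintro ⟨rfl, rfl⟩; exact hne rfl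
        simp [this]
      · intro h; exact absurd (Finset.mem_univ _) h
    rw [h1, map_mul, hc, List.map_cons, List.prod_cons, List.map_cons, List.prod_cons]
    have h2 := ih (q * κ a)
    calc τ q * (φ a * (w.map φ).prod)
        = τ q * φ a * (τ (q * κ a))⁻¹ * (τ (q * κ a) * (w.map φ).prod) := by group
      _ = _ := by rw [h2]; simp only [mul_assoc]

end formula

/-- Generic group step: if the final level and all level counts are measurable, then every language
recognized through `φ` has generalized star height at most one. -/
theorem gshLE_of_levels {G Q : Type} [Group G] [Finite G] [Group Q] [DecidableEq Q]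
    (πG : G →* Q) (hsurj : Function.Surjective πG)
    (hab : ∀ a b : G, πG a = 1 → πG b = 1 → a * b = b * a)
    {α : Type} [Finite α] [DecidableEq α] (φ : α → G)
    (hlev : Meas 1 (fun w : List α => (w.map (fun a => πG (φ a))).prod))
    (hocc : ∀ (x : α) (g : Q) (m : ℕ) [NeZero m],
      Meas 1 (fun w : List α => (occQ (fun a => πG (φ a)) x g 1 w : ZMod m)))
    (T : Set G) : GshLE 1 (langOf fun w : List α => (w.map φ).prod ∈ T) := by
  classical
  have := Fintype.ofFinite α
  have : Finite Q := Finite.of_surjective πG hsurj
  have := Fintype.ofFinite Q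
  let _ : CommGroup πG.ker :=
    { (inferInstance : Group πG.ker) with
      mul_comm := fun a b => Subtype.ext (hab a b (MonoidHom.mem_ker.1 a.2)
        (MonoidHom.mem_ker.1 b.2)) }
  let κ : α → Q := fun a => πG (φ a)
  let τ : Q → G := fun q => Function.surjInv hsurj q
  have hτ : ∀ q, πG (τ q) = q := fun q => Function.surjInv_eq hsurj _
  let c : α × Q → πG.ker := fun i =>
    ⟨τ i.2 * φ i.1 * (τ (i.2 * κ i.1))⁻¹, by
      rw [MonoidHom.mem_ker, map_mul, map_mul, map_inv, hτ, hτ]
      have : πG (φ i.1) = κ i.1 := rfl
      rw [this]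
      group⟩
  have hform := prod_formulaQ (πG.ker.subtype) φ κ τ c (fun a q => rfl)
  set e : ℕ := Nat.card πG.ker with he
  have : NeZero e := ⟨Nat.card_pos.ne'⟩
  have hmeas : Meas 1 (fun w : List α =>
      ((w.map κ).prod, fun i : α × Q => (occQ κ i.1 i.2 1 w : ZMod e))) :=
    hlev.prodMk (Meas.pi (fun i : α × Q => hocc i.1 i.2 e))
  refine hmeas.of_factor _ ?_
  intro w w' hww
  simp only [Prod.mk.injEq] at hww
  obtain ⟨h1, h2⟩ := hww
  have hprod : (w.map φ).prod = (w'.map φ).prod := by
    have e1 := hform w 1
    have e2 := hform w' 1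
    have h3 : (∏ i : α × Q, c i ^ occQ κ i.1 i.2 1 w) =
        ∏ i : α × Q, c i ^ occQ κ i.1 i.2 1 w' := by
      refine Finset.prod_congr rfl ?_
      intro i _
      have h4 := congrFun h2 i
      rw [ZMod.natCast_eq_natCast_iff'] at h4
      rw [← pow_mod_natCard, ← he, h4, he, pow_mod_natCard]
    rw [h3, h1, ← e2] at e1
    exact mul_left_cancel e1
  simp only [mem_langOf, hprod]

end Vale.Agent.P329
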