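import Mathlib

/-!
# The local divisor of a monoid at an element `c`
Carrier `c M ∩ M c`, product `(x c) ∘ (c y) = x c y`, unit `c`.
-/

namespace Vale.Agent.P329

/-- Carrier of the local divisor of `M` at `c`. -/
def LocDiv (M : Type) [Monoid M] (c : M) : Type :=
  {x : M // (∃ y, x = c * y) ∧ (∃ y, x = y * c)}

namespace LocDiv

variable {M : Type} [Monoid M] {c : M}

/-- A chosen left cofactor: `x = lc x * c`. -/
noncomputable def lc (x : LocDiv M c) : M := x.2.2.choose

theorem lc_spec (x : LocDiv M c) : x.1 = lc x * c := x.2.2.choose_spec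

/-- The product does not depend on the chosen cofactor. -/
theorem cof_indep (x y : LocDiv M c) (z z' : M) (hz : x.1 = z * c) (hz' : x.1 = z' * c) :
    z * y.1 = z' * y.1 := by
  obtain ⟨y', hy'⟩ := y.2.1
  rw [hy', ← mul_assoc, ← mul_assoc, ← hz, ← hz']

/-- The raw product of the local divisor. -/
noncomputable def mulAux (x y : LocDiv M c) : LocDiv M c :=
  ⟨lc x * y.1, by
    obtain ⟨y', hy'⟩ := y.2.1
    obtain ⟨x', hx'⟩ := x.2.1
    refine ⟨x' * y', ?_⟩
    rw [hy', ← mul_assoc, ← lc_spec, hx', mul_assoc], by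
    obtain ⟨y', hy'⟩ := y.2.2
    refine ⟨lc x * y', ?_⟩
    rw [hy', mul_assoc]⟩

theorem mulAux_of (x y : LocDiv M c) (z : M) (hz : x.1 = z * c) :
    (mulAux x y).1 = z * y.1 :=
  cof_indep x y (lc x) z (lc_spec x) hz

/-- The unit of the local divisor. -/
def oneAux : LocDiv M c := ⟨c, ⟨1, (mul_one c).symm⟩, ⟨1, (one_mul c).symm⟩⟩

/-- The monoid structure of the local divisor: `(z * c) ∘ y = z * y`, unit `c`. -/
noncomputable instance : Monoid (LocDiv M c) where
  mul := mulAux
  one := oneAux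
  mul_assoc x y w := by
    apply Subtype.ext
    change (mulAux (mulAux x y) w).1 = (mulAux x (mulAux y w)).1
    have h1 : (mulAux x y).1 = (lc x * lc y) * c := by
      rw [mulAux_of x y (lc x) (lc_spec x), mul_assoc, ← lc_spec y]
    rw [mulAux_of (mulAux x y) w _ h1, mulAux_of x (mulAux y w) _ (lc_spec x),
      mulAux_of y w _ (lc_spec y), mul_assoc]
  one_mul y := by
    apply Subtype.ext
    change (mulAux oneAux y).1 = y.1
    rw [mulAux_of oneAux y 1 (one_mul c).symm, one_mul]
  mul_one x := by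
    apply Subtype.ext
    change (mulAux x oneAux).1 = x.1
    rw [mulAux_of x oneAux _ (lc_spec x)]
    exact (lc_spec x).symm

theorem coe_one : (1 : LocDiv M c).1 = c := rfl

theorem coe_mul_of (x y : LocDiv M c) (z : M) (hz : x.1 = z * c) :
    (x * y : LocDiv M c).1 = z * y.1 := mulAux_of x y z hz

/-- The element `c * t * c` of the local divisor. -/
def mk' (c t : M) : LocDiv M c := ⟨c * t * c, ⟨t * c, by rw [mul_assoc]⟩, ⟨c * t, rfl⟩⟩

theorem coe_prod_map (l : List M) :
    ((l.map (mk' c)).prod : LocDiv M c).1 = c * (l.map (fun t => t * c)).prod := by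
  induction l with
  | nil => simp [coe_one]
  | cons t l ih =>
    rw [List.map_cons, List.prod_cons, List.map_cons, List.prod_cons,
      coe_mul_of (mk' c t) _ (c * t) rfl, ih]
    simp only [mul_assoc]

theorem coe_pow_succ (x : LocDiv M c) (z : M) (hz : x.1 = z * c) (n : ℕ) :
    (x ^ (n + 1) : LocDiv M c).1 = z ^ n * x.1 := by
  induction n with
  | zero => simp
  | succ n ih =>
    rw [pow_succ' x (n + 1), coe_mul_of x _ z hz, ih, pow_succ' z n, mul_assoc]

theorem aperiodic (h : ∀ x : M, ∃ n : ℕ, x ^ (n + 1) = x ^ n) :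
    ∀ x : LocDiv M c, ∃ n : ℕ, x ^ (n + 1) = x ^ n := by
  intro x
  obtain ⟨k, hk⟩ := h (lc x)
  refine ⟨k + 1, Subtype.ext ?_⟩
  rw [coe_pow_succ x _ (lc_spec x), coe_pow_succ x _ (lc_spec x), hk]

instance [Finite M] : Finite (LocDiv M c) := Subtype.finite

theorem card_lt [Finite M] (h : ∀ x : M, ∃ n : ℕ, x ^ (n + 1) = x ^ n) (hc : c ≠ 1) :
    Nat.card (LocDiv M c) < Nat.card M := by
  classical
  have := Fintype.ofFinite M
  have h1 : ¬ ((∃ y, (1 : M) = c * y) ∧ (∃ y, (1 : M) = y * c)) := by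
    rintro ⟨⟨y, hy⟩, -⟩
    obtain ⟨n, hn⟩ := h c
    have key : ∀ k : ℕ, c ^ k * y ^ k = 1 := by
      intro k
      induction k with
      | zero => simp
      | succ k ih =>
        rw [pow_succ c k, pow_succ' y k, mul_assoc, ← mul_assoc c y, ← hy, one_mul, ih]
    apply hc
    calc c = c * (c ^ n * y ^ n) := by rw [key n, mul_one]
      _ = c ^ (n + 1) * y ^ n := by rw [pow_succ' c n, mul_assoc]
      _ = 1 := by rw [hn, key n]
  unfold LocDiv
  rw [Nat.card_eq_fintype_card, Nat.card_eq_fintype_card]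
  exact Fintype.card_subtype_lt h1

end LocDiv

end Vale.Agent.P329
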