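import Vale.Agent.P329.RenewalB

/-!
# Phase automata for `π : α → ZMod p`, `p` prime
-/

namespace Vale.Agent.P329

open Language

variable {α : Type} [DecidableEq α] {p : ℕ} [Fact p.Prime] (π : α → ZMod p)

/-- The pure automaton: the phase (sum of `π` over the letters read) and the flag
`the last letter of nonzero phase read so far is x`. -/
def dPure (x : α) (s : ZMod p × Bool) (c : α) : ZMod p × Bool :=
  (s.1 + π c, if π c = 0 then s.2 else decide (c = x))

/-- The reset automaton with base phase `b`: as `dPure`, but the flag is reset to `false`
whenever the new phase is `b`. -/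
def dReset (x : α) (b : ZMod p) (s : ZMod p × Bool) (c : α) : ZMod p × Bool :=
  (s.1 + π c, if s.1 + π c = b then false else if π c = 0 then s.2 else decide (c = x))

/-- Weight: the transitions whose target has phase `b`, except the exempt ones. -/
def wtG (b : ZMod p) (ex : ZMod p × Bool → α → Bool) (s : ZMod p × Bool) (c : α) : Bool :=
  decide (s.1 + π c = b) && !(ex s c)

/-- Number of times the transition `(st, c)` of the pure automaton is taken. -/
def tc (x : α) (st : ZMod p × Bool) (c : α) : ZMod p × Bool → List α → ℕ :=
  cnt (dPure π x) (fun s a => decide (s = st ∧ a = c))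

/-- Number of occurrences of the letter `x` read at phase `g` (start phase is the argument). -/
def occ (x : α) (g : ZMod p) : ZMod p → List α → ℕ
  | _, [] => 0
  | q, c :: w => (if c = x ∧ q = g then 1 else 0) + occ x g (q + π c) w

end Vale.Agent.P329
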