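import Vale.Agent.P329.Phase

/-!
# The reset automaton without its heavy transitions is counter-free
-/

namespace Vale.Agent.P329

open Language

section rep

variable {α : Type}

/-- `rep n u` is the `n`-th power of the word `u`. -/
def rep (n : ℕ) (u : List α) : List α := (List.replicate n u).flatten

@[simp] theorem rep_zero (u : List α) : rep 0 u = [] := rfl

theorem rep_succ (n : ℕ) (u : List α) : rep (n + 1) u = u ++ rep n u := by
  simp [rep, List.replicate_succ]

theorem rep_add (i j : ℕ) (u : List α) : rep (i + j) u = rep i u ++ rep j u := by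
  induction i with
  | zero => simp
  | succ i ih => rw [Nat.succ_add, rep_succ, rep_succ, ih, List.append_assoc]

theorem mem_rep {n : ℕ} {u : List α} {a : α} (h : a ∈ rep n u) : a ∈ u := by
  induction n with
  | zero => simp at h
  | succ n ih =>
    rw [rep_succ, List.mem_append] at h
    exact h.elim id ih

end rep

variable {α : Type} [DecidableEq α] {p : ℕ} [Fact p.Prime] (π : α → ZMod p)

theorem run_reset_fst (x : α) (b : ZMod p) (s : ZMod p × Bool) (v : List α) :
    (run (dReset π x b) s v).1 = s.1 + (v.map π).sum := by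
  induction v generalizing s with
  | nil => simp
  | cons c v ih => rw [run_cons, ih]; simp [dReset, add_assoc]

theorem sum_rep (n : ℕ) (u : List α) : ((rep n u).map π).sum = n * (u.map π).sum := by
  induction n with
  | zero => simp
  | succ n ih => rw [rep_succ, List.map_append, List.sum_append, ih]; push_cast; ring

theorem dReset_eq (x : α) (b : ZMod p) (s : ZMod p × Bool) (c : α) (h : s.1 + π c = b) :
    dReset π x b s c = (s.1 + π c, false) := by
  unfold dReset; rw [if_pos h]

theorem dReset_zero (x : α) (b : ZMod p) (s : ZMod p × Bool) (c : α) (h : s.1 + π c ≠ b)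
    (h2 : π c = 0) : dReset π x b s c = (s.1 + π c, s.2) := by
  unfold dReset; rw [if_neg h, if_pos h2]

theorem dReset_ne (x : α) (b : ZMod p) (s : ZMod p × Bool) (c : α) (h : s.1 + π c ≠ b)
    (h2 : π c ≠ 0) : dReset π x b s c = (s.1 + π c, decide (c = x)) := by
  unfold dReset; rw [if_neg h, if_neg h2]

theorem flag_dichotomy (x : α) (b : ZMod p) (u : List α) (q : ZMod p) :
    (∀ f, (run (dReset π x b) (q, f) u).2 = f) ∨
      (∀ f f', (run (dReset π x b) (q, f) u).2 = (run (dReset π x b) (q, f') u).2) := by
  induction u generalizing q with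
  | nil => left; intro f; rfl
  | cons c u ih =>
    by_cases h1 : q + π c = b
    · right; intro f f'
      rw [run_cons, run_cons, dReset_eq π x b (q, f) c h1, dReset_eq π x b (q, f') c h1]
    · by_cases h2 : π c = 0
      · rcases ih (q + π c) with h | h
        · left; intro f
          rw [run_cons, dReset_zero π x b (q, f) c h1 h2]; exact h f
        · right; intro f f'
          rw [run_cons, run_cons, dReset_zero π x b (q, f) c h1 h2,
            dReset_zero π x b (q, f') c h1 h2]; exact h f f'
      · right; intro f f'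
        rw [run_cons, run_cons, dReset_ne π x b (q, f) c h1 h2, dReset_ne π x b (q, f') c h1 h2]

theorem run_idem (x : α) (b : ZMod p) (u : List α) (hP : (u.map π).sum = 0)
    (s : ZMod p × Bool) :
    run (dReset π x b) (run (dReset π x b) s u) u = run (dReset π x b) s u := by
  obtain ⟨q, f⟩ := s
  have h1 : ∀ f, (run (dReset π x b) (q, f) u).1 = q := by
    intro f; rw [run_reset_fst, hP]; simp
  have h2 : ∀ f, run (dReset π x b) (q, f) u = (q, (run (dReset π x b) (q, f) u).2) := by
    intro f; exact Prod.ext (h1 f) rfl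
  rw [h2 f]
  rcases flag_dichotomy π x b u q with h | h
  · rw [h f, h2 f, h f]
  · rw [h2 ((run (dReset π x b) (q, f) u).2), h _ f]

theorem run_rep_of_idem {S : Type} (δ : S → α → S) (u : List α)
    (h : ∀ s, run δ (run δ s u) u = run δ s u) (n : ℕ) (s : S) :
    run δ s (rep (n + 1) u) = run δ s u := by
  induction n generalizing s with
  | zero => rw [rep_succ, rep_zero, List.append_nil]
  | succ n ih => rw [rep_succ, run_append, ih, h]

theorem inv_step (x c0 : α) (b : ZMod p) (t : ZMod p × Bool) (c : α)
    (hc : π c = 0 ∨ c = c0) (ht : t.1 = b ∨ t.2 = decide (c0 = x)) :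
    (dReset π x b t c).1 = b ∨ (dReset π x b t c).2 = decide (c0 = x) := by
  by_cases h1 : t.1 + π c = b
  · left; exact h1
  · right
    by_cases h2 : π c = 0
    · have : t.1 ≠ b := by
        intro h; apply h1; rw [h2, add_zero, h]
      rw [dReset_zero π x b t c h1 h2]
      exact ht.resolve_left this
    · have hc' : c = c0 := hc.resolve_left h2
      rw [dReset_ne π x b t c h1 h2, hc']

theorem inv_run (x c0 : α) (b : ZMod p) (v : List α) (hv : ∀ c ∈ v, π c = 0 ∨ c = c0)
    (t : ZMod p × Bool) (ht : t.1 = b ∨ t.2 = decide (c0 = x)) :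
    (run (dReset π x b) t v).1 = b ∨ (run (dReset π x b) t v).2 = decide (c0 = x) := by
  induction v generalizing t with
  | nil => exact ht
  | cons c v ih =>
    rw [run_cons]
    exact ih (fun a ha => hv a (List.mem_cons_of_mem _ ha)) _
      (inv_step π x c0 b t c (hv c List.mem_cons_self) ht)

/-- D1. -/
theorem counterfree_reset (x c0 : α) (b : ZMod p) (ex : ZMod p × Bool → α → Bool)
    (hex : ∀ s c, ex s c = true → π c ≠ 0 → c = c0 ∧ s.2 = decide (c0 ≠ x))
    (u : List α) (s : ZMod p × Bool) (n : ℕ) (hn : 0 < n)
    (hrun : run (dReset π x b) s (List.replicate n u).flatten = s)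
    (hcnt : cnt (dReset π x b) (wtG π b ex) s (List.replicate n u).flatten = 0) :
    run (dReset π x b) s u = s := by
  change run (dReset π x b) s (rep n u) = s at hrun
  change cnt (dReset π x b) (wtG π b ex) s (rep n u) = 0 at hcnt
  set δ := dReset π x b with hδ
  set wt := wtG π b ex with hwt
  set P : ZMod p := (u.map π).sum with hPdef
  by_cases hP : P = 0
  · obtain ⟨k, rfl⟩ : ∃ k, n = k + 1 := ⟨n - 1, by omega⟩
    rw [run_rep_of_idem δ u (run_idem π x b u hP) k s] at hrun
    exact hrun
  · exfalso
    -- all multiples of `n`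
    have hmul : ∀ j, run δ s (rep (n * j) u) = s ∧ cnt δ wt s (rep (n * j) u) = 0 := by
      intro j
      induction j with
      | zero => simp [cnt]
      | succ j ih =>
        rw [Nat.mul_succ, rep_add, run_append, cnt_append, ih.1, ih.2, hrun, hcnt]
        exact ⟨rfl, rfl⟩
    have hall : ∀ i, cnt δ wt s (rep i u) = 0 := by
      intro i
      have h1 : n * i = i + (n * i - i) := by
        have : i ≤ n * i := Nat.le_mul_of_pos_left i hn
        omega
      have h2 := (hmul i).2
      rw [h1, rep_add, cnt_append] at h2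
      omega
    -- every transition is light
    have hlight : ∀ (i : ℕ) (u1 u2 : List α) (c : α), u = u1 ++ c :: u2 →
        wt (run δ s (rep i u ++ u1)) c = false := by
      intro i u1 u2 c hu
      have h1 := hall (i + 1)
      rw [rep_add, cnt_append] at h1
      have h2 : cnt δ wt (run δ s (rep i u)) (rep 1 u) = 0 := (Nat.add_eq_zero_iff.1 h1).2
      rw [rep_succ, rep_zero, List.append_nil] at h2
      have h2' : cnt δ wt (run δ s (rep i u)) (u1 ++ c :: u2) = 0 := by rw [← hu]; exact h2
      rw [cnt_append, ← run_append] at h2'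
      have h3 : cnt δ wt (run δ s (rep i u ++ u1)) (c :: u2) = 0 := (Nat.add_eq_zero_iff.1 h2').2
      simp only [cnt] at h3
      by_contra hne
      have : wt (run δ s (rep i u ++ u1)) c = true := by
        cases h : wt (run δ s (rep i u ++ u1)) c
        · exact absurd h hne
        · rfl
      rw [this] at h3
      simp at h3
    -- choice of the exponent
    have hexp : ∀ (r : ZMod p) (j0 : ℕ), ∃ i, j0 ≤ i ∧ (i : ZMod p) * P = r := by
      intro r j0
      refine ⟨(r / P).val + p * j0, ?_, ?_⟩
      · have : 0 < p := (Fact.out : p.Prime).pos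
        have : j0 ≤ p * j0 := Nat.le_mul_of_pos_left j0 this
        omega
      · push_cast
        rw [ZMod.natCast_zmod_val, ZMod.natCast_self]
        field_simp
        ring
    have harr : ∀ (j0 : ℕ) (u1 u2 : List α) (c : α), u = u1 ++ c :: u2 → π c ≠ 0 →
        ∃ i, j0 ≤ i ∧ (run δ s (rep i u ++ u1)).1 + π c = b ∧ c = c0 ∧
          (run δ s (rep i u ++ u1)).2 = decide (c0 ≠ x) := by
      intro j0 u1 u2 c hu hc
      obtain ⟨i, hi, hiP⟩ := hexp (b - s.1 - (u1.map π).sum - π c) j0
      have hph : (run δ s (rep i u ++ u1)).1 + π c = b := by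
        rw [hδ, run_reset_fst, List.map_append, List.sum_append, sum_rep, ← hPdef, hiP]
        ring
      have hl := hlight i u1 u2 c hu
      rw [hwt] at hl
      simp only [wtG, hph, decide_true, Bool.true_and, Bool.not_eq_false'] at hl
      obtain ⟨h1, h2⟩ := hex _ _ hl hc
      exact ⟨i, hi, hph, h1, h2⟩
    have hletters : ∀ c ∈ u, π c = 0 ∨ c = c0 := by
      intro c hc
      by_cases h0 : π c = 0
      · exact Or.inl h0
      · obtain ⟨u1, u2, hu⟩ := List.append_of_mem hc
        obtain ⟨i, -, -, h1, -⟩ := harr 0 u1 u2 c hu h0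
        exact Or.inr h1
    -- a letter of nonzero phase
    obtain ⟨c, hcu, hc0⟩ : ∃ c ∈ u, π c ≠ 0 := by
      by_contra hne
      push Not at hne
      apply hP
      rw [hPdef]
      apply List.sum_eq_zero
      intro y hy
      obtain ⟨a, ha, rfl⟩ := List.mem_map.1 hy
      exact hne a ha
    obtain ⟨u1, u2, hu⟩ := List.append_of_mem hcu
    obtain ⟨j0, -, hj0⟩ := hexp (b - s.1) 0
    have ht0 : (run δ s (rep j0 u)).1 = b := by
      rw [hδ, run_reset_fst, sum_rep, ← hPdef, hj0]; ring
    obtain ⟨i, hi, hph, hcc, hfl⟩ := harr j0 u1 u2 c hu hc0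
    have hsplit : rep i u ++ u1 = rep j0 u ++ (rep (i - j0) u ++ u1) := by
      have : i = j0 + (i - j0) := by omega
      conv_lhs => rw [this, rep_add]
      rw [List.append_assoc]
    have hinv := inv_run π x c0 b (rep (i - j0) u ++ u1) (by
      intro a ha
      rw [List.mem_append] at ha
      rcases ha with ha | ha
      · exact hletters a (mem_rep ha)
      · exact hletters a (by rw [hu]; simp [ha])) (run δ s (rep j0 u)) (Or.inl ht0)
    rw [← hδ, ← run_append, ← hsplit] at hinv
    rcases hinv with h | h
    · rw [h] at hph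
      exact hc0 (by simpa using hph)
    · rw [h] at hfl
      by_cases hxx : c0 = x <;> simp [hxx] at hfl

theorem meas_reset [Finite α] (x c0 : α) (b : ZMod p) (ex : ZMod p × Bool → α → Bool)
    (hex : ∀ s c, ex s c = true → π c ≠ 0 → c = c0 ∧ s.2 = decide (c0 ≠ x))
    (m : ℕ) [NeZero m] (si : ZMod p × Bool) :
    Meas 1 (fun w : List α =>
      (run (dReset π x b) si w, (cnt (dReset π x b) (wtG π b ex) si w : ZMod m))) := by
  refine renewal (dReset π x b) (wtG π b ex) (b, false) ?_
    (fun u s n hn h1 h2 => counterfree_reset π x c0 b ex hex u s n hn h1 h2) m si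
  intro s a h
  simp only [wtG, Bool.and_eq_true, decide_eq_true_eq] at h
  simp [dReset, h.1]

end Vale.Agent.P329
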