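import Vale.Agent.P329.PhaseA

/-!
# Phase automata: coupling and measurability lemmas (D2)
-/

namespace Vale.Agent.P329

open Language

variable {α : Type} [DecidableEq α] {p : ℕ} [Fact p.Prime] (π : α → ZMod p)

/-- One step of the coupling invariant between the reset and the pure automaton. -/
theorem coupling_step (x : α) (b : ZMod p) (c : α) (q : ZMod p) (f f' : Bool)
    (h : q = b ∨ f = f') :
    q + π c = b ∨ (if q + π c = b then false else if π c = 0 then f else decide (c = x))
      = (if π c = 0 then f' else decide (c = x)) := by
  by_cases h1 : q + π c = b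
  · left; exact h1
  · right
    rw [if_neg h1]
    by_cases h2 : π c = 0
    · rw [if_pos h2, if_pos h2]
      rcases h with h | h
      · exact absurd (by rw [h2, add_zero]; exact h) h1
      · exact h
    · rw [if_neg h2, if_neg h2]

/-- D2a. Coupling of the reset automaton with the pure automaton. -/
theorem cnt_coupling (x c0 : α) (hc0 : π c0 ≠ 0) (e : ZMod p) (w : List α) (q : ZMod p)
    (f f' : Bool) (h : q = e + π c0 ∨ f = f') :
    cnt (dReset π x (e + π c0)) (wtG π (e + π c0) (fun _ c => decide (π c = 0))) (q, f) w =
      cnt (dReset π x (e + π c0)) (wtG π (e + π c0)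
        (fun s c => decide (π c = 0) || decide (c = c0 ∧ s.2 = decide (c0 ≠ x)))) (q, f) w
      + tc π x (e, decide (c0 ≠ x)) c0 (q, f') w := by
  induction w generalizing q f f' with
  | nil => simp [tc, cnt]
  | cons c w ih =>
    have hrec := ih _ _ _ (coupling_step π x (e + π c0) c q f f' h)
    have hhead : (if wtG π (e + π c0) (fun _ c => decide (π c = 0)) (q, f) c then 1 else 0) =
        (if wtG π (e + π c0)
          (fun s c => decide (π c = 0) || decide (c = c0 ∧ s.2 = decide (c0 ≠ x))) (q, f) c
          then 1 else 0)
        + (if decide ((q, f') = (e, decide (c0 ≠ x)) ∧ c = c0) then 1 else 0) := by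
      by_cases hc : c = c0
      · subst hc
        by_cases hq : q = e
        · subst hq
          have hne : q ≠ q + π c := by
            intro hh
            apply hc0
            have : q + 0 = q + π c := by rw [add_zero]; exact hh
            exact (add_left_cancel this).symm
          have hff : f = f' := by
            rcases h with h | h
            · exact absurd h hne
            · exact h
          subst hff
          generalize decide (c ≠ x) = d
          cases f <;> cases d <;> simp [wtG, hc0]
        · have hq' : ¬ (q + π c = e + π c) := fun hh => hq (add_right_cancel hh)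
          simp [wtG, hq, hq']
      · simp [wtG, hc]
    unfold tc at hrec ⊢
    simp only [cnt]
    rw [hhead]
    have hrec' : cnt (dReset π x (e + π c0)) (wtG π (e + π c0) (fun _ c => decide (π c = 0)))
        (dReset π x (e + π c0) (q, f) c) w =
      cnt (dReset π x (e + π c0)) (wtG π (e + π c0)
        (fun s c => decide (π c = 0) || decide (c = c0 ∧ s.2 = decide (c0 ≠ x))))
        (dReset π x (e + π c0) (q, f) c) w
      + cnt (dPure π x) (fun s a => decide (s = (e, decide (c0 ≠ x)) ∧ a = c0))
        (dPure π x (q, f') c) w := hrec
    rw [hrec']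
    ring

/-- The exemption of all letters of phase zero satisfies the hypothesis of `meas_reset`. -/
theorem hex_one (x c0 : α) (s : ZMod p × Bool) (c : α)
    (h : (fun (_ : ZMod p × Bool) (c : α) => decide (π c = 0)) s c = true) (h' : π c ≠ 0) :
    c = c0 ∧ s.2 = decide (c0 ≠ x) := by
  simp only [decide_eq_true_eq] at h
  exact absurd h h'

/-- D2b. The transitions `((e, decide (c0 ≠ x)), c0)` of the pure automaton can be counted. -/
theorem meas_tc [Finite α] (x c0 : α) (hc0 : π c0 ≠ 0) (e : ZMod p) (m : ℕ) [NeZero m] :
    Meas 1 (fun w : List α => (tc π x (e, decide (c0 ≠ x)) c0 (0, false) w : ZMod m)) := by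
  have h1 := meas_reset π x c0 (e + π c0) (fun _ c => decide (π c = 0))
    (fun s c h h' => hex_one π x c0 s c h h') m (0, false)
  have h2 := meas_reset π x c0 (e + π c0)
    (fun s c => decide (π c = 0) || decide (c = c0 ∧ s.2 = decide (c0 ≠ x)))
    (by
      intro s c h h'
      simp only [Bool.or_eq_true, decide_eq_true_eq] at h
      rcases h with h | h
      · exact absurd h h'
      · exact h) m (0, false)
  have h3 := (h1.prodMk h2).comp (fun t => t.1.2 - t.2.2)
  refine h3.congr ?_
  intro w
  have := cnt_coupling π x c0 hc0 e w 0 false false (Or.inr rfl)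
  simp only
  rw [this]
  push_cast
  ring

/-- Counting a letter of phase zero read at phase `g`. -/
theorem cnt_occ (x z : α) (hz : π z = 0) (g : ZMod p) (w : List α) (q : ZMod p) (f : Bool) :
    cnt (dReset π x g) (wtG π g (fun _ c => decide (π c = 0 ∧ c ≠ z))) (q, f) w =
      cnt (dReset π x g) (wtG π g (fun _ c => decide (π c = 0))) (q, f) w + occ π z g q w := by
  induction w generalizing q f with
  | nil => simp [cnt, occ]
  | cons c w ih =>
    have hhead : (if wtG π g (fun _ c => decide (π c = 0 ∧ c ≠ z)) (q, f) c then 1 else 0) =
        (if wtG π g (fun _ c => decide (π c = 0)) (q, f) c then 1 else 0)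
        + (if c = z ∧ q = g then 1 else 0) := by
      by_cases hc : c = z
      · subst hc
        by_cases hq : q = g
        · simp [wtG, hz, hq]
        · simp [wtG, hz, hq]
      · simp [wtG, hc]
    simp only [cnt, occ]
    rw [hhead]
    have hrec : cnt (dReset π x g) (wtG π g (fun _ c => decide (π c = 0 ∧ c ≠ z)))
        (dReset π x g (q, f) c) w =
      cnt (dReset π x g) (wtG π g (fun _ c => decide (π c = 0))) (dReset π x g (q, f) c) w
        + occ π z g (q + π c) w := ih _ _
    rw [hrec]
    ring

/-- D2c. Occurrences of a letter of phase zero at a given phase can be counted. -/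
theorem meas_occ_zero [Finite α] (z : α) (hz : π z = 0) (g : ZMod p) (m : ℕ) [NeZero m] :
    Meas 1 (fun w : List α => (occ π z g 0 w : ZMod m)) := by
  have h1 := meas_reset π z z g (fun _ c => decide (π c = 0))
    (fun s c h h' => hex_one π z z s c h h') m (0, false)
  have h2 := meas_reset π z z g (fun _ c => decide (π c = 0 ∧ c ≠ z))
    (by
      intro s c h h'
      simp only [decide_eq_true_eq] at h
      exact absurd h.1 h') m (0, false)
  have h3 := (h2.prodMk h1).comp (fun t => t.1.2 - t.2.2)
  refine h3.congr ?_
  intro w
  have := cnt_occ π z z hz g w 0 false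
  simp only
  rw [this]
  push_cast
  ring

/-- The coupling invariant along a run. -/
theorem run_coupling (x : α) (b : ZMod p) (w : List α) (q : ZMod p) (f f' : Bool)
    (h : q = b ∨ f = f') :
    (run (dReset π x b) (q, f) w).1 = (run (dPure π x) (q, f') w).1 ∧
      ((run (dReset π x b) (q, f) w).1 = b ∨
        (run (dReset π x b) (q, f) w).2 = (run (dPure π x) (q, f') w).2) := by
  induction w generalizing q f f' with
  | nil => exact ⟨rfl, h⟩
  | cons c w ih => exact ih _ _ _ (coupling_step π x b c q f f' h)

/-- D2d. The state of the pure automaton is measurable. -/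
theorem meas_pure_state [Finite α] (x : α) :
    Meas 1 (fun w : List α => run (dPure π x) (0, false) w) := by
  rintro ⟨q, f⟩
  have h1 := (meas_reset π x x (q + 1) (fun _ c => decide (π c = 0))
    (fun s c h h' => hex_one π x x s c h h') 1 (0, false)).comp (fun t => t.1)
  refine (h1 (q, f)).congr ?_
  intro w
  simp only [mem_langOf]
  obtain ⟨e1, e2⟩ := run_coupling π x (q + 1) w 0 false false (Or.inr rfl)
  have hne : q ≠ q + 1 := by
    intro hh
    have : q + 0 = q + 1 := by rw [add_zero]; exact hh
    exact zero_ne_one (add_left_cancel this)
  constructor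
  · intro hw
    rw [hw] at e1 e2
    simp only at e1 e2
    rcases e2 with e2 | e2
    · exact absurd (e1.symm.trans e2) hne
    · exact Prod.ext e1 e2
  · intro hw
    rw [hw] at e1 e2
    simp only at e1 e2
    rcases e2 with e2 | e2
    · exact absurd e2 hne
    · exact Prod.ext e1.symm e2.symm

theorem cnt_unit_eq_count {α : Type} [DecidableEq α] (x : α) (w : List α) :
    cnt (fun (_ : Unit) (_ : α) => ()) (fun _ c => decide (c = x)) () w = w.count x := by
  induction w with
  | nil => simp [cnt]
  | cons c w ih =>
    simp only [cnt, ih, List.count_cons]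
    by_cases hc : c = x
    · simp [hc, add_comm]
    · simp [hc]

/-- D2e. The number of occurrences of a letter is measurable (Henneman). -/
theorem meas_count {α : Type} [DecidableEq α] [Finite α] (x : α) (m : ℕ) [NeZero m] :
    Meas 1 (fun w : List α => (w.count x : ZMod m)) := by
  have h := renewal (fun (_ : Unit) (_ : α) => ()) (fun _ c => decide (c = x)) ()
    (fun _ _ _ => rfl) (fun _ _ _ _ _ _ => rfl) m ()
  refine (h.comp (fun t => t.2)).congr ?_
  intro w
  simp only
  rw [cnt_unit_eq_count]

end Vale.Agent.P329
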