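import Vale.Agent.P329.Schutz

/-!
# The renewal lemma: counting modulo `m` the transitions of a set `E`, all landing on one state,
whose removal leaves a counter-free automaton
-/

namespace Vale.Agent.P329

open Language

variable {α S : Type}

/-- The state reached from `s` by reading `w`. -/
def run (δ : S → α → S) (s : S) (w : List α) : S := w.foldl δ s

/-- The number of transitions of weight `true` used when reading `w` from `s`. -/
def cnt (δ : S → α → S) (wt : S → α → Bool) : S → List α → ℕ
  | _, [] => 0
  | s, a :: w => (if wt s a then 1 else 0) + cnt δ wt (δ s a) w

@[simp] theorem run_nil (δ : S → α → S) (s : S) : run δ s [] = s := rfl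

@[simp] theorem run_cons (δ : S → α → S) (s : S) (a : α) (w : List α) :
    run δ s (a :: w) = run δ (δ s a) w := rfl

theorem run_append (δ : S → α → S) (s : S) (u v : List α) :
    run δ s (u ++ v) = run δ (run δ s u) v := by
  simp [run, List.foldl_append]

theorem cnt_append (δ : S → α → S) (wt : S → α → Bool) (s : S) (u v : List α) :
    cnt δ wt s (u ++ v) = cnt δ wt s u + cnt δ wt (run δ s u) v := by
  induction u generalizing s with
  | nil => simp [cnt]
  | cons a u ih => simp [cnt, ih, add_assoc]

end Vale.Agent.P329
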