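import Vale.Agent.P329.Renewal

/-!
# Zero-weight path languages are star-free
-/

namespace Vale.Agent.P329

open Language

variable {α S : Type}

/-- The action of a word on `Option S`: follow the word as long as all transitions have weight
`false`. -/
def zact (δ : S → α → S) (wt : S → α → Bool) (w : List α) : Option S → Option S :=
  fun o => o.bind (fun s => if cnt δ wt s w = 0 then some (run δ s w) else none)

theorem zact_none (δ : S → α → S) (wt : S → α → Bool) (w : List α) :
    zact δ wt w none = none := rfl

theorem zact_some (δ : S → α → S) (wt : S → α → Bool) (w : List α) (s : S) :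
    zact δ wt w (some s) = if cnt δ wt s w = 0 then some (run δ s w) else none := rfl

theorem zact_some_eq_some (δ : S → α → S) (wt : S → α → Bool) (w : List α) (s s' : S) :
    zact δ wt w (some s) = some s' ↔ run δ s w = s' ∧ cnt δ wt s w = 0 := by
  rw [zact_some]
  by_cases h : cnt δ wt s w = 0
  · simp [h]
  · simp [h]

theorem zact_nil (δ : S → α → S) (wt : S → α → Bool) : zact δ wt [] = id := by
  funext o
  cases o with
  | none => rfl
  | some s => simp [zact_some, cnt]

theorem zact_append (δ : S → α → S) (wt : S → α → Bool) (u v : List α) :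
    zact δ wt (u ++ v) = zact δ wt v ∘ zact δ wt u := by
  funext o
  cases o with
  | none => rfl
  | some s =>
    rw [Function.comp_apply, zact_some, zact_some, cnt_append, run_append]
    by_cases h : cnt δ wt s u = 0
    · simp [h, zact_some]
    · simp [h, zact_none]

/-- The transition monoid of the zero-weight part. -/
def ZMon (δ : S → α → S) (wt : S → α → Bool) : Type :=
  {F : Option S → Option S // ∃ w : List α, F = zact δ wt w}

instance (δ : S → α → S) (wt : S → α → Bool) : Monoid (ZMon δ wt) where
  mul F G := ⟨G.1 ∘ F.1, by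
    obtain ⟨u, hu⟩ := F.2
    obtain ⟨v, hv⟩ := G.2
    exact ⟨u ++ v, by rw [zact_append, hu, hv]⟩⟩
  one := ⟨id, [], (zact_nil δ wt).symm⟩
  mul_assoc _ _ _ := Subtype.ext rfl
  one_mul _ := Subtype.ext rfl
  mul_one _ := Subtype.ext rfl

instance [Finite S] (δ : S → α → S) (wt : S → α → Bool) : Finite (ZMon δ wt) :=
  inferInstanceAs (Finite {F : Option S → Option S // ∃ w : List α, F = zact δ wt w})

/-- The element of the monoid given by a word. -/
def zword (δ : S → α → S) (wt : S → α → Bool) (w : List α) : ZMon δ wt := ⟨zact δ wt w, w, rfl⟩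

theorem zword_mul (δ : S → α → S) (wt : S → α → Bool) (u v : List α) :
    zword δ wt u * zword δ wt v = zword δ wt (u ++ v) :=
  Subtype.ext (zact_append δ wt u v).symm

theorem zword_nil (δ : S → α → S) (wt : S → α → Bool) : zword δ wt [] = 1 :=
  Subtype.ext (zact_nil δ wt)

theorem zword_prod (δ : S → α → S) (wt : S → α → Bool) (w : List α) :
    (w.map (fun a => zword δ wt [a])).prod = zword δ wt w := by
  induction w with
  | nil => simp [zword_nil]
  | cons a w ih => rw [List.map_cons, List.prod_cons, ih, zword_mul]; rfl

theorem zword_pow (δ : S → α → S) (wt : S → α → Bool) (w : List α) (n : ℕ) :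
    zword δ wt w ^ n = zword δ wt (List.replicate n w).flatten := by
  induction n with
  | zero => simp [zword_nil]
  | succ n ih => rw [pow_succ', ih, zword_mul, List.replicate_succ, List.flatten_cons]

theorem zmon_aperiodic [Finite S] (δ : S → α → S) (wt : S → α → Bool)
    (hcf : ∀ (u : List α) (s : S) (n : ℕ), 0 < n →
      run δ s (List.replicate n u).flatten = s →
      cnt δ wt s (List.replicate n u).flatten = 0 → run δ s u = s)
    (x : ZMon δ wt) : ∃ n : ℕ, x ^ (n + 1) = x ^ n := by
  obtain ⟨F, w, rfl⟩ := x
  change ∃ n : ℕ, zword δ wt w ^ (n + 1) = zword δ wt w ^ n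
  obtain ⟨a, b, hab, heq⟩ := Finite.exists_ne_map_eq_of_infinite (fun n : ℕ => zword δ wt w ^ n)
  -- wlog a < b
  have key : ∀ i k : ℕ, 0 < k → zword δ wt w ^ (i + k) = zword δ wt w ^ i →
      zword δ wt w ^ (i + 1) = zword δ wt w ^ i := by
    intro i k hk h
    rw [pow_add, zword_pow, zword_pow, zword_mul] at h
    rw [pow_add, pow_one, zword_pow, zword_mul]
    have h' : zact δ wt ((List.replicate i w).flatten ++ (List.replicate k w).flatten)
        = zact δ wt (List.replicate i w).flatten := congrArg Subtype.val h
    apply Subtype.ext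
    show zact δ wt ((List.replicate i w).flatten ++ w) = zact δ wt (List.replicate i w).flatten
    rw [zact_append] at h' ⊢
    funext o
    have ho := congrFun h' o
    rw [Function.comp_apply] at ho ⊢
    generalize zact δ wt (List.replicate i w).flatten o = o' at ho ⊢
    cases o' with
    | none => rfl
    | some s =>
      obtain ⟨hr, hc⟩ := (zact_some_eq_some δ wt _ s s).1 ho
      have hrun : run δ s w = s := hcf w s k hk hr hc
      have hcnt : cnt δ wt s w = 0 := by
        obtain ⟨k', rfl⟩ : ∃ k', k = k' + 1 := ⟨k - 1, by omega⟩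
        rw [List.replicate_succ, List.flatten_cons, cnt_append] at hc
        omega
      exact (zact_some_eq_some δ wt _ s s).2 ⟨hrun, hcnt⟩
  rcases lt_or_gt_of_ne hab with h | h
  · refine ⟨a, key a (b - a) (by omega) ?_⟩
    have : a + (b - a) = b := by omega
    rw [this]
    exact heq.symm
  · refine ⟨b, key b (a - b) (by omega) ?_⟩
    have : b + (a - b) = a := by omega
    rw [this]
    exact heq

/-- Zero-weight path languages are star-free. -/
theorem zeroPaths_starFree [Finite α] [Finite S] (δ : S → α → S) (wt : S → α → Bool)
    (hcf : ∀ (u : List α) (s : S) (n : ℕ), 0 < n →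
      run δ s (List.replicate n u).flatten = s →
      cnt δ wt s (List.replicate n u).flatten = 0 → run δ s u = s)
    (s s' : S) :
    GshLE 0 (langOf fun w : List α => run δ s w = s' ∧ cnt δ wt s w = 0) := by
  have hm : Meas 0 (fun w : List α => (w.map (fun a => zword δ wt [a])).prod) :=
    fun m => schutz (zmon_aperiodic δ wt hcf) (fun a => zword δ wt [a]) m
  refine (hm.preimage {m : ZMon δ wt | m.1 (some s) = some s'}).congr ?_
  intro w
  rw [mem_langOf, mem_langOf, zword_prod]
  exact (zact_some_eq_some δ wt w s s').symm

end Vale.Agent.P329
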