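import Vale.Agent.P329.RenewalA

/-!
# Proof of the renewal lemma (from `zeroPaths_starFree`)
-/

namespace Vale.Agent.P329

open Language

variable {α S : Type}

/-- words leading from `s` to `sf` with exactly `j` transitions of weight `true` -/
def exactL (δ : S → α → S) (wt : S → α → Bool) (s : S) (j : ℕ) (sf : S) : Language α :=
  langOf fun w => run δ s w = sf ∧ cnt δ wt s w = j

/-- words from `s` whose last transition is the first one of weight `true` -/
def firstL (δ : S → α → S) (wt : S → α → Bool) (s : S) : Language α :=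
  langOf fun w => ∃ u a, w = u ++ [a] ∧ cnt δ wt s u = 0 ∧ wt (run δ s u) a = true

theorem exists_first (δ : S → α → S) (wt : S → α → Bool) (s : S) (w : List α)
    (h : 0 < cnt δ wt s w) :
    ∃ u a v, w = u ++ a :: v ∧ cnt δ wt s u = 0 ∧ wt (run δ s u) a = true := by
  induction w generalizing s with
  | nil => simp [cnt] at h
  | cons a w ih =>
    by_cases hw : wt s a = true
    · exact ⟨[], a, w, rfl, rfl, hw⟩
    · have h' : 0 < cnt δ wt (δ s a) w := by simpa [cnt, hw] using h
      obtain ⟨u, b, v, rfl, hu, hb⟩ := ih (δ s a) h'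
      exact ⟨a :: u, b, v, rfl, by simp [cnt, hw, hu], hb⟩

theorem exactL_succ (δ : S → α → S) (wt : S → α → Bool) (s0 : S)
    (hland : ∀ s a, wt s a = true → δ s a = s0) (s : S) (j : ℕ) (sf : S) :
    exactL δ wt s (j + 1) sf = firstL δ wt s * exactL δ wt s0 j sf := by
  ext w
  rw [Language.mem_mul]
  constructor
  · rintro ⟨hr, hc⟩
    obtain ⟨u, a, v, rfl, hu, ha⟩ := exists_first δ wt s w (by omega)
    have hs0 : δ (run δ s u) a = s0 := hland _ _ ha
    refine ⟨u ++ [a], ⟨u, a, rfl, hu, ha⟩, v, ⟨?_, ?_⟩, by simp⟩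
    · rw [run_append, run_cons, hs0] at hr
      exact hr
    · rw [cnt_append, hu] at hc
      simp only [cnt, ha, if_true, hs0] at hc
      omega
  · rintro ⟨x, ⟨u, a, rfl, hu, ha⟩, v, ⟨hr, hc⟩, rfl⟩
    have hs0 : δ (run δ s u) a = s0 := hland _ _ ha
    constructor
    · rw [run_append, run_append, run_cons, run_nil, hs0]
      exact hr
    · rw [cnt_append, cnt_append, hu, run_append, run_cons, run_nil, hs0, hc]
      simp only [cnt, ha, if_true]
      omega

theorem pow_mul_exactL (δ : S → α → S) (wt : S → α → Bool) (s0 : S)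
    (hland : ∀ s a, wt s a = true → δ s a = s0) (n j : ℕ) (sf : S) :
    (firstL δ wt s0) ^ n * exactL δ wt s0 j sf = exactL δ wt s0 (n + j) sf := by
  induction n with
  | zero => simp
  | succ n ih =>
    rw [pow_succ', mul_assoc, ih, ← exactL_succ δ wt s0 hland]
    congr 1
    omega

theorem firstL_starFree [Finite α] [Finite S] (δ : S → α → S) (wt : S → α → Bool)
    (hcf : ∀ (u : List α) (s : S) (n : ℕ), 0 < n →
      run δ s (List.replicate n u).flatten = s →
      cnt δ wt s (List.replicate n u).flatten = 0 → run δ s u = s) (s : S) :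
    GshLE 0 (firstL δ wt s) := by
  have h : ∀ p : S × α, GshLE 0 (langOf fun w : List α => wt p.1 p.2 = true ∧
      w ∈ (langOf fun w : List α => run δ s w = p.1 ∧ cnt δ wt s w = 0) * {[p.2]}) := by
    intro p
    refine (gshLE_const 0 (wt p.1 p.2 = true)).and ?_
    exact ((zeroPaths_starFree δ wt hcf s p.1).mul (gshLE_letter 0 p.2)).congr
      (fun w => Iff.rfl)
  refine (GshLE.exists h).congr ?_
  intro w
  simp only [firstL, mem_langOf, Language.mem_mul]
  constructor
  · rintro ⟨u, a, rfl, hu, ha⟩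
    exact ⟨(run δ s u, a), ha, u, ⟨rfl, hu⟩, [a], rfl, rfl⟩
  · rintro ⟨⟨s', a⟩, ha, u, ⟨hr, hu⟩, x, hx, rfl⟩
    have hx' : x = [a] := hx
    subst hx'
    exact ⟨u, a, rfl, hu, by rw [hr]; exact ha⟩

/-- **Renewal lemma.** -/
theorem renewal [Finite α] [Finite S] (δ : S → α → S) (wt : S → α → Bool) (s0 : S)
    (hland : ∀ s a, wt s a = true → δ s a = s0)
    (hcf : ∀ (u : List α) (s : S) (n : ℕ), 0 < n →
      run δ s (List.replicate n u).flatten = s →
      cnt δ wt s (List.replicate n u).flatten = 0 → run δ s u = s)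
    (m : ℕ) [NeZero m] (si : S) :
    Meas 1 (fun w : List α => (run δ si w, (cnt δ wt si w : ZMod m))) := by
  rintro ⟨sf, k⟩
  have hm : 0 < m := Nat.pos_of_ne_zero (NeZero.ne m)
  set r : ℕ := (k.val + m - 1) % m with hr
  have hT : ∀ s, GshLE 1 (exactL δ wt s 0 sf) := fun s =>
    (zeroPaths_starFree δ wt hcf s sf).mono (Nat.zero_le 1)
  have hR : ∀ s, GshLE 0 (firstL δ wt s) := firstL_starFree δ wt hcf
  have h1 : GshLE 1 (langOf fun w : List α => k = 0 ∧ w ∈ exactL δ wt si 0 sf) :=
    (gshLE_const 1 (k = 0)).and ((hT si).congr (fun w => Iff.rfl))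
  have h2 : GshLE 1 (firstL δ wt si *
      (KStar.kstar ((firstL δ wt s0) ^ m) * ((firstL δ wt s0) ^ r * exactL δ wt s0 0 sf))) :=
    ((hR si).mono (Nat.zero_le 1)).mul
      ((((hR s0).pow m).star).mul ((((hR s0).pow r).mono (Nat.zero_le 1)).mul (hT s0)))
  refine (h1.add h2).congr ?_
  intro w
  have key : w ∈ firstL δ wt si *
      (KStar.kstar ((firstL δ wt s0) ^ m) * ((firstL δ wt s0) ^ r * exactL δ wt s0 0 sf))
      ↔ ∃ q : ℕ, w ∈ exactL δ wt si (m * q + r + 1) sf := by
    rw [kstar_eq_iSup_pow, iSup_mul, mul_iSup, Language.mem_iSup]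
    refine exists_congr (fun q => ?_)
    rw [← pow_mul, ← mul_assoc (_ ^ (m * q)), ← pow_add, pow_mul_exactL δ wt s0 hland,
      ← exactL_succ δ wt s0 hland, add_zero]
  rw [Language.mem_add, key]
  simp only [mem_langOf, exactL, Prod.mk.injEq]
  have hk : ((k.val : ℕ) : ZMod m) = k := ZMod.natCast_zmod_val k
  have hklt : k.val < m := ZMod.val_lt k
  constructor
  · rintro ⟨hrun, hc⟩
    rcases Nat.eq_zero_or_pos (cnt δ wt si w) with h0 | hpos
    · left
      refine ⟨?_, hrun, h0⟩
      rw [← hc, h0]; simp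
    · right
      have hmod : cnt δ wt si w % m = k.val := by
        rw [← hc, ZMod.val_natCast]
      refine ⟨(cnt δ wt si w - 1) / m, hrun, ?_⟩
      have e1 : (cnt δ wt si w - 1) % m = r := by
        rw [hr, ← hmod]
        have e2 : cnt δ wt si w % m + m - 1 = cnt δ wt si w % m + (m - 1) := by omega
        rw [e2, Nat.mod_add_mod]
        have e3 : cnt δ wt si w + (m - 1) = (cnt δ wt si w - 1) + m := by omega
        rw [e3, Nat.add_mod_right]
      have e4 := Nat.div_add_mod (cnt δ wt si w - 1) m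
      rw [e1] at e4
      omega
  · rintro (⟨hk0, hrun, hc⟩ | ⟨q, hrun, hc⟩)
    · exact ⟨hrun, by rw [hc, hk0]; simp⟩
    · refine ⟨hrun, ?_⟩
      rw [hc]
      have e1 : ((r : ℕ) : ZMod m) = ((k.val + m - 1 : ℕ) : ZMod m) := by
        rw [hr, ZMod.natCast_mod]
      have e2 : (((k.val + m - 1 : ℕ) + 1 : ℕ) : ZMod m) = k := by
        have : k.val + m - 1 + 1 = k.val + m := by omega
        rw [this]
        push_cast
        rw [hk]; simp
      push_cast at e2 ⊢
      rw [e1]
      simp only [ZMod.natCast_self, zero_mul, zero_add]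
      exact e2

end Vale.Agent.P329
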