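import Vale.Agent.P329.Basic

/-!
# Cutting a word at the occurrences of a letter `c` (tool for the local divisor proof)
-/

namespace Vale.Agent.P329

open Language

variable {α M : Type} [DecidableEq α] [Monoid M]

/-- `sigAux φ c acc w` cuts `w` at each occurrence of `c` and lists the `φ`-values of the `c`-free
blocks that are followed by a `c` (the value of the first block is premultiplied by `acc`);
an incomplete last block is dropped. -/
def sigAux (φ : α → M) (c : α) : M → List α → List M
  | _, [] => []
  | acc, a :: w => if a = c then acc :: sigAux φ c 1 w else sigAux φ c (acc * φ a) w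

/-- Words that are empty or end with the letter `c`. -/
def EndsC (c : α) (w : List α) : Prop := w = [] ∨ ∃ v, w = v ++ [c]

omit [DecidableEq α] in
theorem EndsC.nil (c : α) : EndsC c [] := Or.inl rfl

omit [DecidableEq α] in
theorem EndsC.tail {c a : α} {w : List α} (h : EndsC c (a :: w)) : EndsC c w := by
  rcases h with h | ⟨v, hv⟩
  · cases h
  · cases v with
    | nil =>
      simp only [List.nil_append, List.cons.injEq] at hv
      exact Or.inl hv.2
    | cons b v =>
      simp only [List.cons_append, List.cons.injEq] at hv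
      exact Or.inr ⟨v, hv.2⟩

omit [DecidableEq α] in
theorem EndsC.cons {c : α} (a : α) {w : List α} (h : EndsC c w) (hne : w ≠ []) :
    EndsC c (a :: w) := by
  rcases h with h | ⟨v, hv⟩
  · exact absurd h hne
  · exact Or.inr ⟨a :: v, by rw [hv]; rfl⟩

omit [DecidableEq α] in
theorem EndsC.cons_c (c : α) {w : List α} (h : EndsC c w) : EndsC c (c :: w) := by
  rcases h with h | ⟨v, hv⟩
  · subst h; exact Or.inr ⟨[], rfl⟩
  · exact Or.inr ⟨c :: v, by rw [hv]; rfl⟩

omit [DecidableEq α] in
theorem EndsC.ne_nil_of_ne {c a : α} {w : List α} (h : EndsC c (a :: w)) (hac : a ≠ c) :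
    w ≠ [] := by
  rintro rfl
  rcases h with h | ⟨v, hv⟩
  · cases h
  · cases v with
    | nil =>
      simp only [List.nil_append, List.cons.injEq, and_true] at hv
      exact hac hv
    | cons b v =>
      simp only [List.cons_append, List.cons.injEq] at hv
      have := hv.2
      simp at this

omit [DecidableEq α] in
theorem EndsC.append {c : α} {u v : List α} (hu : EndsC c u) (hv : EndsC c v) :
    EndsC c (u ++ v) := by
  rcases hv with rfl | ⟨v', rfl⟩
  · simpa using hu
  · exact Or.inr ⟨u ++ v', by simp⟩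

theorem prod_eq_sig_aux (φ : α → M) (c : α) (w : List α) :
    ∀ acc : M, EndsC c w → w ≠ [] →
      acc * (w.map φ).prod = ((sigAux φ c acc w).map (fun t => t * φ c)).prod := by
  induction w with
  | nil => intro acc _ h; exact absurd rfl h
  | cons a w ih =>
    intro acc hw _
    by_cases hac : a = c
    · subst hac
      simp only [sigAux, if_true, List.map_cons, List.prod_cons]
      by_cases hnil : w = []
      · subst hnil
        simp [sigAux]
      · rw [← ih 1 hw.tail hnil, one_mul, mul_assoc]
    · simp only [sigAux, if_neg hac, List.map_cons, List.prod_cons]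
      rw [← ih (acc * φ a) hw.tail (hw.ne_nil_of_ne hac), mul_assoc]

theorem prod_eq_sig (φ : α → M) (c : α) (w : List α) (hw : EndsC c w) :
    (w.map φ).prod = ((sigAux φ c 1 w).map (fun t => t * φ c)).prod := by
  by_cases hnil : w = []
  · subst hnil; simp [sigAux]
  · rw [← prod_eq_sig_aux φ c w 1 hw hnil, one_mul]

theorem sigAux_ne_nil (φ : α → M) (c : α) (w : List α) :
    ∀ acc : M, EndsC c w → w ≠ [] → sigAux φ c acc w ≠ [] := by
  induction w with
  | nil => intro acc _ h; exact absurd rfl h
  | cons a w ih =>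
    intro acc hw _
    by_cases hac : a = c
    · subst hac
      simp [sigAux]
    · simp only [sigAux, if_neg hac]
      exact ih _ hw.tail (hw.ne_nil_of_ne hac)

theorem sigAux_append (φ : α → M) (c : α) (u v : List α) :
    ∀ acc : M, EndsC c u → u ≠ [] →
      sigAux φ c acc (u ++ v) = sigAux φ c acc u ++ sigAux φ c 1 v := by
  induction u with
  | nil => intro acc _ h; exact absurd rfl h
  | cons a u ih =>
    intro acc hu _
    by_cases hac : a = c
    · subst hac
      simp only [List.cons_append, sigAux, if_true]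
      by_cases hnil : u = []
      · subst hnil; simp [sigAux]
      · rw [ih 1 hu.tail hnil]
    · simp only [List.cons_append, sigAux, if_neg hac]
      exact ih _ hu.tail (hu.ne_nil_of_ne hac)

theorem sigAux_append_one (φ : α → M) (c : α) (u v : List α) (hu : EndsC c u) :
    sigAux φ c 1 (u ++ v) = sigAux φ c 1 u ++ sigAux φ c 1 v := by
  by_cases hnil : u = []
  · subst hnil; simp [sigAux]
  · exact sigAux_append φ c u v 1 hu hnil

theorem sigAux_split_aux (φ : α → M) (c : α) (w : List α) :
    ∀ (acc : M) (τ1 τ2 : List M), EndsC c w → sigAux φ c acc w = τ1 ++ τ2 → τ1 ≠ [] →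
      ∃ w1 w2, w = w1 ++ w2 ∧ EndsC c w1 ∧ EndsC c w2 ∧ sigAux φ c acc w1 = τ1 ∧
        sigAux φ c 1 w2 = τ2 := by
  induction w with
  | nil =>
    intro acc τ1 τ2 _ h hne
    simp only [sigAux] at h
    have : τ1 = [] := (List.append_eq_nil_iff.1 h.symm).1
    exact absurd this hne
  | cons a w ih =>
    intro acc τ1 τ2 hw h hne
    by_cases hac : a = c
    · subst hac
      simp only [sigAux, if_true] at h
      cases τ1 with
      | nil => exact absurd rfl hne
      | cons t τ1 =>
        simp only [List.cons_append, List.cons.injEq] at h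
        obtain ⟨rfl, h⟩ := h
        by_cases hnil : τ1 = []
        · subst hnil
          exact ⟨[a], w, rfl, Or.inr ⟨[], rfl⟩, hw.tail, by simp [sigAux], by simpa using h⟩
        · obtain ⟨w1, w2, rfl, h1, h2, h3, h4⟩ := ih 1 τ1 τ2 hw.tail h hnil
          exact ⟨a :: w1, w2, rfl, h1.cons_c, h2, by simp [sigAux, h3], h4⟩
    · simp only [sigAux, if_neg hac] at h
      obtain ⟨w1, w2, rfl, h1, h2, h3, h4⟩ := ih _ τ1 τ2 hw.tail h hne
      have hw1 : w1 ≠ [] := by
        rintro rfl
        simp only [sigAux] at h3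
        exact hne h3.symm
      exact ⟨a :: w1, w2, rfl, h1.cons a hw1, h2, by simp [sigAux, hac, h3], h4⟩

theorem sigAux_split (φ : α → M) (c : α) (w : List α) (τ1 τ2 : List M) (hw : EndsC c w)
    (h : sigAux φ c 1 w = τ1 ++ τ2) :
    ∃ w1 w2, w = w1 ++ w2 ∧ EndsC c w1 ∧ EndsC c w2 ∧ sigAux φ c 1 w1 = τ1 ∧
      sigAux φ c 1 w2 = τ2 := by
  by_cases hnil : τ1 = []
  · subst hnil
    exact ⟨[], w, rfl, EndsC.nil c, hw, rfl, by simpa using h⟩
  · exact sigAux_split_aux φ c w 1 τ1 τ2 hw h hnil

theorem sigAux_singleton_aux (φ : α → M) (c : α) (w : List α) :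
    ∀ (acc t : M), EndsC c w → sigAux φ c acc w = [t] →
      ∃ u, w = u ++ [c] ∧ (∀ a ∈ u, a ≠ c) ∧ acc * (u.map φ).prod = t := by
  induction w with
  | nil => intro acc t _ h; simp [sigAux] at h
  | cons a w ih =>
    intro acc t hw h
    by_cases hac : a = c
    · subst hac
      simp only [sigAux, if_true, List.cons.injEq] at h
      obtain ⟨rfl, h⟩ := h
      have hnil : w = [] := by
        by_contra hne
        exact sigAux_ne_nil φ a w 1 hw.tail hne h
      subst hnil
      exact ⟨[], rfl, by simp, by simp⟩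
    · simp only [sigAux, if_neg hac] at h
      obtain ⟨u, rfl, h1, h2⟩ := ih _ t hw.tail h
      refine ⟨a :: u, rfl, ?_, ?_⟩
      · intro b hb
        rcases List.mem_cons.1 hb with rfl | hb
        · exact hac
        · exact h1 b hb
      · simpa [mul_assoc] using h2

theorem sigAux_block (φ : α → M) (c : α) (u : List α) :
    ∀ acc : M, (∀ a ∈ u, a ≠ c) → sigAux φ c acc (u ++ [c]) = [acc * (u.map φ).prod] := by
  induction u with
  | nil => intro acc _; simp [sigAux]
  | cons a u ih =>
    intro acc h
    have hac : a ≠ c := h a (by simp)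
    simp only [List.cons_append, sigAux, if_neg hac, List.map_cons, List.prod_cons]
    rw [ih _ (fun b hb => h b (by simp [hb])), mul_assoc]

omit [DecidableEq α] in
theorem gshLE_endsC (c : α) : GshLE 0 (langOf fun w : List α => EndsC c w) := by
  refine ((gshLE_one (α := α) 0).add ((gshLE_top 0).mul (gshLE_letter 0 c))).congr ?_
  intro w
  rw [mem_langOf, Language.mem_add, Language.mem_mul, Language.mem_one]
  constructor
  · rintro (h | ⟨v, rfl⟩)
    · exact Or.inl h
    · exact Or.inr ⟨v, trivial, [c], rfl, rfl⟩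
  · rintro (h | ⟨v, -, x, hx, rfl⟩)
    · exact Or.inl h
    · have hx' : x = [c] := hx
      subst hx'
      exact Or.inr ⟨v, rfl⟩

/-- Pull-back of a star-free language over the alphabet `M` along `sigAux φ c 1`.
Induction on the star-free expression: letter `t` gives the c-free words of value t followed by the letter c,
concatenation gives concatenation, complement is taken relative to `EndsC c`
(which is `1 + ⊤ * {[c]}`). -/
theorem sig_pullback [Finite α] (φ : α → M) (c : α)
    (hB : ∀ m : M, GshLE 0 (langOf fun w : List α => (∀ a ∈ w, a ≠ c) ∧ (w.map φ).prod = m))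
    {K : Language M} (hK : GshLE 0 K) :
    GshLE 0 (langOf fun w : List α => EndsC c w ∧ sigAux φ c 1 w ∈ K) := by
  obtain ⟨e, rfl, hs⟩ := hK
  induction e with
  | zero =>
    refine (gshLE_zero (α := α) 0).congr ?_
    intro w
    simp only [mem_langOf, GRE.lang, Language.notMem_zero, and_false]
  | one =>
    refine (gshLE_one (α := α) 0).congr ?_
    intro w
    simp only [mem_langOf, GRE.lang, Language.mem_one]
    constructor
    · rintro ⟨h1, h2⟩
      by_contra hne
      exact sigAux_ne_nil φ c w 1 h1 hne h2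
    · rintro rfl
      exact ⟨EndsC.nil c, rfl⟩
  | letter t =>
    refine ((hB t).mul (gshLE_letter 0 c)).congr ?_
    intro w
    rw [mem_langOf, Language.mem_mul]
    constructor
    · rintro ⟨h1, h2⟩
      have h2' : sigAux φ c 1 w = [t] := h2
      obtain ⟨u, rfl, h3, h4⟩ := sigAux_singleton_aux φ c w 1 t h1 h2'
      exact ⟨u, ⟨h3, by simpa using h4⟩, [c], rfl, rfl⟩
    · rintro ⟨u, ⟨h3, h4⟩, x, hx, rfl⟩
      have hx' : x = [c] := hx
      subst hx'
      refine ⟨Or.inr ⟨u, rfl⟩, ?_⟩
      rw [sigAux_block φ c u 1 h3, one_mul, h4]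
      rfl
  | plus P Q ihP ihQ =>
    have hP : P.sh ≤ 0 := le_trans (le_max_left _ _) hs
    have hQ : Q.sh ≤ 0 := le_trans (le_max_right _ _) hs
    refine ((ihP hP).add (ihQ hQ)).congr ?_
    intro w
    simp only [mem_langOf, GRE.lang, Language.mem_add]
    tauto
  | cat P Q ihP ihQ =>
    have hP : P.sh ≤ 0 := le_trans (le_max_left _ _) hs
    have hQ : Q.sh ≤ 0 := le_trans (le_max_right _ _) hs
    refine ((ihP hP).mul (ihQ hQ)).congr ?_
    intro w
    simp only [mem_langOf, GRE.lang, Language.mem_mul]
    constructor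
    · rintro ⟨h1, τ1, hτ1, τ2, hτ2, h⟩
      obtain ⟨w1, w2, rfl, e1, e2, s1, s2⟩ := sigAux_split φ c w τ1 τ2 h1 h.symm
      exact ⟨w1, ⟨e1, by rw [s1]; exact hτ1⟩, w2, ⟨e2, by rw [s2]; exact hτ2⟩, rfl⟩
    · rintro ⟨w1, ⟨e1, s1⟩, w2, ⟨e2, s2⟩, rfl⟩
      exact ⟨e1.append e2, _, s1, _, s2, (sigAux_append_one φ c w1 w2 e1).symm⟩
  | neg P ihP =>
    have hP : P.sh ≤ 0 := hs
    refine ((gshLE_endsC c).and (ihP hP).not).congr ?_
    intro w
    simp only [mem_langOf, GRE.lang, mem_compl_lang]
    tauto
  | star P _ =>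
    simp [GRE.sh] at hs

end Vale.Agent.P329
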