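import Vale.Agent.P329.Embed
import Vale.Agent.P329.LocalDivisor
import Vale.Agent.P329.Sigma

/-!
# Schutzenberger: languages recognized by finite aperiodic monoids are star-free
(local divisor proof, after Kufleitner)
-/

namespace Vale.Agent.P329

open Language

theorem exists_split_last {α : Type} [DecidableEq α] (c : α) (w : List α) :
    ∃ v u, w = v ++ u ∧ EndsC c v ∧ ∀ a ∈ u, a ≠ c := by
  induction w using List.reverseRecOn with
  | nil => exact ⟨[], [], rfl, Or.inl rfl, by simp⟩
  | append_singleton w a ih =>
    by_cases h : a = c
    · subst h
      exact ⟨w ++ [a], [], by simp, Or.inr ⟨w, rfl⟩, by simp⟩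
    · obtain ⟨v, u, rfl, hv, hu⟩ := ih
      refine ⟨v, u ++ [a], by simp, hv, ?_⟩
      intro b hb
      rw [List.mem_append] at hb
      rcases hb with hb | hb
      · exact hu b hb
      · rw [List.mem_singleton] at hb
        rw [hb]
        exact h

theorem exists_split_first {α : Type} [DecidableEq α] (c : α) (w : List α) :
    (∀ a ∈ w, a ≠ c) ∨ ∃ u r, w = u ++ c :: r ∧ ∀ a ∈ u, a ≠ c := by
  induction w with
  | nil => left; simp
  | cons b w ih =>
    by_cases h : b = c
    · subst h
      right
      exact ⟨[], w, rfl, by simp⟩
    · rcases ih with ih | ⟨u, r, rfl, hu⟩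
      · left
        intro a ha
        rcases List.mem_cons.1 ha with rfl | ha
        · exact h
        · exact ih a ha
      · right
        refine ⟨b :: u, r, rfl, ?_⟩
        intro a ha
        rcases List.mem_cons.1 ha with rfl | ha
        · exact h
        · exact hu a ha

theorem schutz_aux : ∀ (N : ℕ) (M : Type) [Monoid M] [Finite M], Nat.card M < N →
    (∀ x : M, ∃ n : ℕ, x ^ (n + 1) = x ^ n) →
    ∀ (K : ℕ) (α : Type) [Finite α], Nat.card α < K → ∀ (φ : α → M) (m : M),
    GshLE 0 (langOf fun w : List α => (w.map φ).prod = m) := by
  intro N
  induction N with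
  | zero => intro M _ _ h; exact absurd h (Nat.not_lt_zero _)
  | succ N ihN =>
    intro M _ _ hM hap K
    induction K with
    | zero => intro α _ h; exact absurd h (Nat.not_lt_zero _)
    | succ K ihK =>
      intro α _ hα φ m
      classical
      by_cases hall : ∀ a, φ a = 1
      · have h1 : ∀ w : List α, (w.map φ).prod = 1 := by
          intro w
          induction w with
          | nil => simp
          | cons a w ih => simp [hall a, ih]
        exact (gshLE_const 0 (1 = m)).congr (by intro w; simp [mem_langOf, h1 w])
      · push Not at hall
        obtain ⟨c, hc⟩ := hall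
        -- (i) c-free words
        have hB : ∀ m : M, GshLE 0
            (langOf fun w : List α => (∀ a ∈ w, a ≠ c) ∧ (w.map φ).prod = m) := by
          intro m
          have hcard : Nat.card {a : α // a ≠ c} < K := by
            have h2 : Nat.card {a : α // a ≠ c} < Nat.card α := by
              have := Fintype.ofFinite α
              rw [Nat.card_eq_fintype_card, Nat.card_eq_fintype_card]
              exact Fintype.card_subtype_lt (x := c) (by simp)
            omega
          have h1 := ihK {a : α // a ≠ c} hcard (fun a => φ a.1) m
          have h2 := GshLE.map_injective (Subtype.val : {a : α // a ≠ c} → α)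
            Subtype.val_injective h1
          refine h2.congr ?_
          intro w
          rw [mem_langOf]
          constructor
          · rintro ⟨hw, hm⟩
            lift w to List {a : α // a ≠ c} using hw
            refine ⟨w, ?_, rfl⟩
            show (w.map fun a => φ a.1).prod = m
            rw [← hm, List.map_map]
            rfl
          · rintro ⟨v, hv, rfl⟩
            have hv' : (v.map fun a => φ a.1).prod = m := hv
            refine ⟨?_, ?_⟩
            · intro a ha
              rw [List.mem_map] at ha
              obtain ⟨b, -, rfl⟩ := ha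
              exact b.2
            · rw [← hv', List.map_map]
              rfl
        -- (ii) the local divisor
        have hE0 : ∀ x : LocDiv M (φ c), GshLE 0 (langOf fun w : List α =>
            EndsC c w ∧ sigAux φ c 1 w ∈
              (langOf fun l : List M => (l.map (LocDiv.mk' (φ c))).prod = x)) := by
          intro x
          refine sig_pullback φ c hB ?_
          have hlt : Nat.card (LocDiv M (φ c)) < N := by
            have := LocDiv.card_lt (c := φ c) hap hc
            omega
          exact ihN (LocDiv M (φ c)) hlt (LocDiv.aperiodic hap) (Nat.card M + 1) M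
            (Nat.lt_succ_self _) (LocDiv.mk' (φ c)) x
        have hval : ∀ w : List α, EndsC c w →
            (((sigAux φ c 1 w).map (LocDiv.mk' (φ c))).prod : LocDiv M (φ c)).1
              = φ c * (w.map φ).prod := by
          intro w hw
          rw [LocDiv.coe_prod_map, prod_eq_sig φ c w hw]
        have hE : ∀ y : M, GshLE 0 (langOf fun w : List α =>
            EndsC c w ∧ φ c * (w.map φ).prod = y) := by
          intro y
          have h1 : ∀ x : LocDiv M (φ c), GshLE 0 (langOf fun w : List α => x.1 = y ∧
              (EndsC c w ∧ sigAux φ c 1 w ∈
              (langOf fun l : List M => (l.map (LocDiv.mk' (φ c))).prod = x))) :=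
            fun x => (gshLE_const 0 (x.1 = y)).and (hE0 x)
          refine (GshLE.exists h1).congr ?_
          intro w
          simp only [mem_langOf]
          constructor
          · rintro ⟨hw, hy⟩
            exact ⟨_, by rw [hval w hw, hy], hw, rfl⟩
          · rintro ⟨x, hx, hw, hwx⟩
            refine ⟨hw, ?_⟩
            rw [← hval w hw, hwx, hx]
        -- (iii) assembling
        have hP : ∀ p : M × M × M, GshLE 0 (langOf fun w : List α => p.1 * p.2.1 * p.2.2 = m ∧
            w ∈ ((langOf fun w : List α => (∀ a ∈ w, a ≠ c) ∧ (w.map φ).prod = p.1) * {[c]} *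
              (langOf fun w : List α => EndsC c w ∧ φ c * (w.map φ).prod = p.2.1) *
              (langOf fun w : List α => (∀ a ∈ w, a ≠ c) ∧ (w.map φ).prod = p.2.2) :
                Language α)) := by
          intro p
          exact (gshLE_const 0 (p.1 * p.2.1 * p.2.2 = m)).and
            ((((hB p.1).mul (gshLE_letter 0 c)).mul (hE p.2.1)).mul (hB p.2.2))
        refine ((hB m).or (GshLE.exists hP)).congr ?_
        intro w
        simp only [mem_langOf]
        constructor
        · intro hw
          rcases exists_split_first c w with hfree | ⟨u0, r, rfl, hu0⟩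
          · exact Or.inl ⟨hfree, hw⟩
          · right
            obtain ⟨v, u1, rfl, hv, hu1⟩ := exists_split_last c r
            refine ⟨((u0.map φ).prod, φ c * (v.map φ).prod, (u1.map φ).prod), ?_, ?_⟩
            · rw [← hw]
              simp [mul_assoc]
            · rw [Language.mem_mul]
              refine ⟨u0 ++ [c] ++ v, ?_, u1, ⟨hu1, rfl⟩, by simp⟩
              rw [Language.mem_mul]
              refine ⟨u0 ++ [c], ?_, v, ⟨hv, rfl⟩, rfl⟩
              rw [Language.mem_mul]
              exact ⟨u0, ⟨hu0, rfl⟩, [c], rfl, rfl⟩
        · rintro (⟨-, hw⟩ | ⟨p, hp, hw⟩)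
          · exact hw
          · rw [Language.mem_mul] at hw
            obtain ⟨x, hx, u1, ⟨-, hu1⟩, rfl⟩ := hw
            rw [Language.mem_mul] at hx
            obtain ⟨y, hy, v, ⟨-, hv⟩, rfl⟩ := hx
            rw [Language.mem_mul] at hy
            obtain ⟨u0, ⟨-, hu0⟩, z, hz, rfl⟩ := hy
            have hz' : z = [c] := hz
            subst hz'
            rw [← hp, ← hu0, ← hv, ← hu1]
            simp [mul_assoc]

/-- Every language recognized by a finite aperiodic monoid is star-free. -/
theorem schutz {M : Type} [Monoid M] [Finite M] (hap : ∀ x : M, ∃ n : ℕ, x ^ (n + 1) = x ^ n)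
    {α : Type} [Finite α] (φ : α → M) (m : M) :
    GshLE 0 (langOf fun w : List α => (w.map φ).prod = m) :=
  schutz_aux (Nat.card M + 1) M (Nat.lt_succ_self _) hap (Nat.card α + 1) α
    (Nat.lt_succ_self _) φ m

end Vale.Agent.P329
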